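import Mathlib
import Vale.Agent.P154q3.C.Params

/-!
Approximation of the powers of `(1+u)⁻¹` on `[-1, 2]` from below: generated Bernstein certificates on
subintervals with exact rationals.
-/

namespace Vale.Agent.P154q3.C

private lemma bern4 (c0 c1 c2 c3 c4 s t : ℝ) (h0 : 0 ≤ c0) (h1 : 0 ≤ c1) (h2 : 0 ≤ c2) (h3 : 0 ≤ c3) (h4 : 0 ≤ c4) (hs : 0 ≤ s) (ht : 0 ≤ t) :
    0 ≤ c0 * t ^ 4 + c1 * s ^ 1 * t ^ 3 + c2 * s ^ 2 * t ^ 2 + c3 * s ^ 3 * t ^ 1 + c4 * s ^ 4 := by
  positivity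

private lemma bern5 (c0 c1 c2 c3 c4 c5 s t : ℝ) (h0 : 0 ≤ c0) (h1 : 0 ≤ c1) (h2 : 0 ≤ c2) (h3 : 0 ≤ c3) (h4 : 0 ≤ c4) (h5 : 0 ≤ c5) (hs : 0 ≤ s) (ht : 0 ≤ t) :
    0 ≤ c0 * t ^ 5 + c1 * s ^ 1 * t ^ 4 + c2 * s ^ 2 * t ^ 3 + c3 * s ^ 3 * t ^ 2 + c4 * s ^ 4 * t ^ 1 + c5 * s ^ 5 := by
  positivity

private lemma bern6 (c0 c1 c2 c3 c4 c5 c6 s t : ℝ) (h0 : 0 ≤ c0) (h1 : 0 ≤ c1) (h2 : 0 ≤ c2) (h3 : 0 ≤ c3) (h4 : 0 ≤ c4) (h5 : 0 ≤ c5) (h6 : 0 ≤ c6) (hs : 0 ≤ s) (ht : 0 ≤ t) :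
    0 ≤ c0 * t ^ 6 + c1 * s ^ 1 * t ^ 5 + c2 * s ^ 2 * t ^ 4 + c3 * s ^ 3 * t ^ 3 + c4 * s ^ 4 * t ^ 2 + c5 * s ^ 5 * t ^ 1 + c6 * s ^ 6 := by
  positivity

private theorem b1_nonneg (u : ℝ) (hl : -1 ≤ u) (hr : u ≤ 2) :
    0 ≤ 1 - (1 + u) * G1 u := by
  have e : 1 - (1 + u) * G1 u =
      (9859/131072) * u ^ 0 + (-75417/262144) * u ^ 1 + (101207/262144) * u ^ 2 + (-55259/262144) * u ^ 3 + (10543/262144) * u ^ 4 := by
    simp only [G1]; ring
  rw [e]
  by_cases hc0 : u ≤ (1/2)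
  · have hs : 0 ≤ u - (-1) := by linarith
    have ht : 0 ≤ (1/2) - u := by linarith
    have b := bern4 (16/81) (159953/663552) (86599/884736) (158603/10616832) (17005/21233664) (u - (-1)) ((1/2) - u) (by norm_num) (by norm_num) (by norm_num) (by norm_num) (by norm_num) hs ht
    have key : (9859/131072) * u ^ 0 + (-75417/262144) * u ^ 1 + (101207/262144) * u ^ 2 + (-55259/262144) * u ^ 3 + (10543/262144) * u ^ 4 =
        (16/81) * ((1/2) - u) ^ 4 + (159953/663552) * (u - (-1)) ^ 1 * ((1/2) - u) ^ 3 + (86599/884736) * (u - (-1)) ^ 2 * ((1/2) - u) ^ 2 + (158603/10616832) * (u - (-1)) ^ 3 * ((1/2) - u) ^ 1 + (17005/21233664) * (u - (-1)) ^ 4 := by ring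
    rw [key]; exact b
  by_cases hc1 : u ≤ (11/16)
  · have hs : 0 ≤ u - (1/2) := by linarith [not_le.1 hc0]
    have ht : 0 ≤ (11/16) - u := by linarith
    have b := bern4 (17005/5184) (147487/20736) (148187/27648) (2398897/1327104) (6802927/21233664) (u - (1/2)) ((11/16) - u) (by norm_num) (by norm_num) (by norm_num) (by norm_num) (by norm_num) hs ht
    have key : (9859/131072) * u ^ 0 + (-75417/262144) * u ^ 1 + (101207/262144) * u ^ 2 + (-55259/262144) * u ^ 3 + (10543/262144) * u ^ 4 =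
        (17005/5184) * ((11/16) - u) ^ 4 + (147487/20736) * (u - (1/2)) ^ 1 * ((11/16) - u) ^ 3 + (148187/27648) * (u - (1/2)) ^ 2 * ((11/16) - u) ^ 2 + (2398897/1327104) * (u - (1/2)) ^ 3 * ((11/16) - u) ^ 1 + (6802927/21233664) * (u - (1/2)) ^ 4 := by ring
    rw [key]; exact b
  by_cases hc2 : u ≤ (7/8)
  · have hs : 0 ≤ u - (11/16) := by linarith [not_le.1 hc1]
    have ht : 0 ≤ (7/8) - u := by linarith
    have b := bern4 (6802927/21233664) (2005133/2654208) (1949323/884736) (1915913/663552) (1538599/1327104) (u - (11/16)) ((7/8) - u) (by norm_num) (by norm_num) (by norm_num) (by norm_num) (by norm_num) hs ht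
    have key : (9859/131072) * u ^ 0 + (-75417/262144) * u ^ 1 + (101207/262144) * u ^ 2 + (-55259/262144) * u ^ 3 + (10543/262144) * u ^ 4 =
        (6802927/21233664) * ((7/8) - u) ^ 4 + (2005133/2654208) * (u - (11/16)) ^ 1 * ((7/8) - u) ^ 3 + (1949323/884736) * (u - (11/16)) ^ 2 * ((7/8) - u) ^ 2 + (1915913/663552) * (u - (11/16)) ^ 3 * ((7/8) - u) ^ 1 + (1538599/1327104) * (u - (11/16)) ^ 4 := by ring
    rw [key]; exact b
  by_cases hc3 : u ≤ (5/4)
  · have hs : 0 ≤ u - (7/8) := by linarith [not_le.1 hc2]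
    have ht : 0 ≤ (5/4) - u := by linarith
    have b := bern4 (1538599/21233664) (674971/1327104) (1075309/884736) (41807/41472) (357043/1327104) (u - (7/8)) ((5/4) - u) (by norm_num) (by norm_num) (by norm_num) (by norm_num) (by norm_num) hs ht
    have key : (9859/131072) * u ^ 0 + (-75417/262144) * u ^ 1 + (101207/262144) * u ^ 2 + (-55259/262144) * u ^ 3 + (10543/262144) * u ^ 4 =
        (1538599/21233664) * ((5/4) - u) ^ 4 + (674971/1327104) * (u - (7/8)) ^ 1 * ((5/4) - u) ^ 3 + (1075309/884736) * (u - (7/8)) ^ 2 * ((5/4) - u) ^ 2 + (41807/41472) * (u - (7/8)) ^ 3 * ((5/4) - u) ^ 1 + (357043/1327104) * (u - (7/8)) ^ 4 := by ring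
    rw [key]; exact b
  by_cases hc4 : u ≤ (13/8)
  · have hs : 0 ≤ u - (5/4) := by linarith [not_le.1 hc3]
    have ht : 0 ≤ (13/8) - u := by linarith
    have b := bern4 (357043/1327104) (189815/165888) (1436701/884736) (1148371/1327104) (3330727/21233664) (u - (5/4)) ((13/8) - u) (by norm_num) (by norm_num) (by norm_num) (by norm_num) (by norm_num) hs ht
    have key : (9859/131072) * u ^ 0 + (-75417/262144) * u ^ 1 + (101207/262144) * u ^ 2 + (-55259/262144) * u ^ 3 + (10543/262144) * u ^ 4 =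
        (357043/1327104) * ((13/8) - u) ^ 4 + (189815/165888) * (u - (5/4)) ^ 1 * ((13/8) - u) ^ 3 + (1436701/884736) * (u - (5/4)) ^ 2 * ((13/8) - u) ^ 2 + (1148371/1327104) * (u - (5/4)) ^ 3 * ((13/8) - u) ^ 1 + (3330727/21233664) * (u - (5/4)) ^ 4 := by ring
    rw [key]; exact b
  by_cases hc5 : u ≤ (29/16)
  · have hs : 0 ≤ u - (13/8) := by linarith [not_le.1 hc4]
    have ht : 0 ≤ (29/16) - u := by linarith
    have b := bern4 (3330727/1327104) (5398697/663552) (8162443/884736) (11552717/2654208) (16843759/21233664) (u - (13/8)) ((29/16) - u) (by norm_num) (by norm_num) (by norm_num) (by norm_num) (by norm_num) hs ht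
    have key : (9859/131072) * u ^ 0 + (-75417/262144) * u ^ 1 + (101207/262144) * u ^ 2 + (-55259/262144) * u ^ 3 + (10543/262144) * u ^ 4 =
        (3330727/1327104) * ((29/16) - u) ^ 4 + (5398697/663552) * (u - (13/8)) ^ 1 * ((29/16) - u) ^ 3 + (8162443/884736) * (u - (13/8)) ^ 2 * ((29/16) - u) ^ 2 + (11552717/2654208) * (u - (13/8)) ^ 3 * ((29/16) - u) ^ 1 + (16843759/21233664) * (u - (13/8)) ^ 4 := by ring
    rw [key]; exact b
  have hs : 0 ≤ u - (29/16) := by linarith [not_le.1 hc5]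
  have ht : 0 ≤ (2) - u := by linarith
  have b := bern4 (16843759/21233664) (2645521/1327104) (59399/27648) (9955/5184) (82/81) (u - (29/16)) ((2) - u) (by norm_num) (by norm_num) (by norm_num) (by norm_num) (by norm_num) hs ht
  have key : (9859/131072) * u ^ 0 + (-75417/262144) * u ^ 1 + (101207/262144) * u ^ 2 + (-55259/262144) * u ^ 3 + (10543/262144) * u ^ 4 =
      (16843759/21233664) * ((2) - u) ^ 4 + (2645521/1327104) * (u - (29/16)) ^ 1 * ((2) - u) ^ 3 + (59399/27648) * (u - (29/16)) ^ 2 * ((2) - u) ^ 2 + (9955/5184) * (u - (29/16)) ^ 3 * ((2) - u) ^ 1 + (82/81) * (u - (29/16)) ^ 4 := by ring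
  rw [key]; exact b

private theorem b2_nonneg (u : ℝ) (hl : -1 ≤ u) (hr : u ≤ 2) :
    0 ≤ (5 + 4 * u) - (1 + u) ^ 2 * G2 u := by
  have e : (5 + 4 * u) - (1 + u) ^ 2 * G2 u =
      (116055/131072) * u ^ 0 + (-103109/65536) * u ^ 1 + (18559/65536) * u ^ 2 + (125153/131072) * u ^ 3 + (-86547/131072) * u ^ 4 + (16619/131072) * u ^ 5 := by
    simp only [G2]; ring
  rw [e]
  by_cases hc0 : u ≤ (1/2)
  · have hs : 0 ≤ u - (-1) := by linarith
    have ht : 0 ≤ (1/2) - u := by linarith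
    have b := bern5 (32/243) (352/243) (8611475/3981312) (10161931/7962624) (2678975/7962624) (1055353/31850496) (u - (-1)) ((1/2) - u) (by norm_num) (by norm_num) (by norm_num) (by norm_num) (by norm_num) (by norm_num) hs ht
    have key : (116055/131072) * u ^ 0 + (-103109/65536) * u ^ 1 + (18559/65536) * u ^ 2 + (125153/131072) * u ^ 3 + (-86547/131072) * u ^ 4 + (16619/131072) * u ^ 5 =
        (32/243) * ((1/2) - u) ^ 5 + (352/243) * (u - (-1)) ^ 1 * ((1/2) - u) ^ 4 + (8611475/3981312) * (u - (-1)) ^ 2 * ((1/2) - u) ^ 3 + (10161931/7962624) * (u - (-1)) ^ 3 * ((1/2) - u) ^ 2 + (2678975/7962624) * (u - (-1)) ^ 4 * ((1/2) - u) ^ 1 + (1055353/31850496) * (u - (-1)) ^ 5 := by ring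
    rw [key]; exact b
  by_cases hc1 : u ≤ (5/4)
  · have hs : 0 ≤ u - (1/2) := by linarith [not_le.1 hc0]
    have ht : 0 ≤ (5/4) - u := by linarith
    have b := bern5 (1055353/995328) (5114395/1990656) (3519347/1990656) (1612213/3981312) (375857/15925248) (142955/31850496) (u - (1/2)) ((5/4) - u) (by norm_num) (by norm_num) (by norm_num) (by norm_num) (by norm_num) (by norm_num) hs ht
    have key : (116055/131072) * u ^ 0 + (-103109/65536) * u ^ 1 + (18559/65536) * u ^ 2 + (125153/131072) * u ^ 3 + (-86547/131072) * u ^ 4 + (16619/131072) * u ^ 5 =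
        (1055353/995328) * ((5/4) - u) ^ 5 + (5114395/1990656) * (u - (1/2)) ^ 1 * ((5/4) - u) ^ 4 + (3519347/1990656) * (u - (1/2)) ^ 2 * ((5/4) - u) ^ 3 + (1612213/3981312) * (u - (1/2)) ^ 3 * ((5/4) - u) ^ 2 + (375857/15925248) * (u - (1/2)) ^ 4 * ((5/4) - u) ^ 1 + (142955/31850496) * (u - (1/2)) ^ 5 := by ring
    rw [key]; exact b
  by_cases hc2 : u ≤ (13/8)
  · have hs : 0 ≤ u - (5/4) := by linarith [not_le.1 hc1]
    have ht : 0 ≤ (13/8) - u := by linarith
    have b := bern5 (142955/995328) (1392611/1990656) (8371543/1990656) (28887539/3981312) (68922679/15925248) (27020935/31850496) (u - (5/4)) ((13/8) - u) (by norm_num) (by norm_num) (by norm_num) (by norm_num) (by norm_num) (by norm_num) hs ht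
    have key : (116055/131072) * u ^ 0 + (-103109/65536) * u ^ 1 + (18559/65536) * u ^ 2 + (125153/131072) * u ^ 3 + (-86547/131072) * u ^ 4 + (16619/131072) * u ^ 5 =
        (142955/995328) * ((13/8) - u) ^ 5 + (1392611/1990656) * (u - (5/4)) ^ 1 * ((13/8) - u) ^ 4 + (8371543/1990656) * (u - (5/4)) ^ 2 * ((13/8) - u) ^ 3 + (28887539/3981312) * (u - (5/4)) ^ 3 * ((13/8) - u) ^ 2 + (68922679/15925248) * (u - (5/4)) ^ 4 * ((13/8) - u) ^ 1 + (27020935/31850496) * (u - (5/4)) ^ 5 := by ring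
    rw [key]; exact b
  have hs : 0 ≤ u - (13/8) := by linarith [not_le.1 hc2]
  have ht : 0 ≤ (2) - u := by linarith
  have b := bern5 (27020935/31850496) (16545499/3981312) (3268357/497664) (51779/15552) (1261/3888) (371/972) (u - (13/8)) ((2) - u) (by norm_num) (by norm_num) (by norm_num) (by norm_num) (by norm_num) (by norm_num) hs ht
  have key : (116055/131072) * u ^ 0 + (-103109/65536) * u ^ 1 + (18559/65536) * u ^ 2 + (125153/131072) * u ^ 3 + (-86547/131072) * u ^ 4 + (16619/131072) * u ^ 5 =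
      (27020935/31850496) * ((2) - u) ^ 5 + (16545499/3981312) * (u - (13/8)) ^ 1 * ((2) - u) ^ 4 + (3268357/497664) * (u - (13/8)) ^ 2 * ((2) - u) ^ 3 + (51779/15552) * (u - (13/8)) ^ 3 * ((2) - u) ^ 2 + (1261/3888) * (u - (13/8)) ^ 4 * ((2) - u) ^ 1 + (371/972) * (u - (13/8)) ^ 5 := by ring
  rw [key]; exact b

private theorem b3_nonneg (u : ℝ) (hl : -1 ≤ u) (hr : u ≤ 2) :
    0 ≤ (15 + 24 * u + 10 * u ^ 2) - (1 + u) ^ 3 * G3 u := by
  have e : (15 + 24 * u + 10 * u ^ 2) - (1 + u) ^ 3 * G3 u =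
      (925827/262144) * u ^ 0 + (-91029/32768) * u ^ 1 + (-271075/65536) * u ^ 2 + (128861/32768) * u ^ 3 + (225219/262144) * u ^ 4 + (-50593/32768) * u ^ 5 + (46655/131072) * u ^ 6 := by
    simp only [G3]; ring
  rw [e]
  by_cases hc0 : u ≤ (1/2)
  · have hs : 0 ≤ u - (-1) := by linarith
    have ht : 0 ≤ (1/2) - u := by linarith
    have b := bern6 (64/729) (256/243) (160/27) (50089471/5971968) (79797271/15925248) (908425/663552) (13516253/95551488) (u - (-1)) ((1/2) - u) (by norm_num) (by norm_num) (by norm_num) (by norm_num) (by norm_num) (by norm_num) (by norm_num) hs ht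
    have key : (925827/262144) * u ^ 0 + (-91029/32768) * u ^ 1 + (-271075/65536) * u ^ 2 + (128861/32768) * u ^ 3 + (225219/262144) * u ^ 4 + (-50593/32768) * u ^ 5 + (46655/131072) * u ^ 6 =
        (64/729) * ((1/2) - u) ^ 6 + (256/243) * (u - (-1)) ^ 1 * ((1/2) - u) ^ 5 + (160/27) * (u - (-1)) ^ 2 * ((1/2) - u) ^ 4 + (50089471/5971968) * (u - (-1)) ^ 3 * ((1/2) - u) ^ 3 + (79797271/15925248) * (u - (-1)) ^ 4 * ((1/2) - u) ^ 2 + (908425/663552) * (u - (-1)) ^ 5 * ((1/2) - u) ^ 1 + (13516253/95551488) * (u - (-1)) ^ 6 := by ring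
    rw [key]; exact b
  by_cases hc1 : u ≤ (5/4)
  · have hs : 0 ≤ u - (1/2) := by linarith [not_le.1 hc0]
    have ht : 0 ≤ (5/4) - u := by linarith
    have b := bern6 (13516253/1492992) (231439/6144) (113759927/1990656) (117390149/2985984) (34482935/2654208) (15675659/7962624) (11041151/95551488) (u - (1/2)) ((5/4) - u) (by norm_num) (by norm_num) (by norm_num) (by norm_num) (by norm_num) (by norm_num) (by norm_num) hs ht
    have key : (925827/262144) * u ^ 0 + (-91029/32768) * u ^ 1 + (-271075/65536) * u ^ 2 + (128861/32768) * u ^ 3 + (225219/262144) * u ^ 4 + (-50593/32768) * u ^ 5 + (46655/131072) * u ^ 6 =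
        (13516253/1492992) * ((5/4) - u) ^ 6 + (231439/6144) * (u - (1/2)) ^ 1 * ((5/4) - u) ^ 5 + (113759927/1990656) * (u - (1/2)) ^ 2 * ((5/4) - u) ^ 4 + (117390149/2985984) * (u - (1/2)) ^ 3 * ((5/4) - u) ^ 3 + (34482935/2654208) * (u - (1/2)) ^ 4 * ((5/4) - u) ^ 2 + (15675659/7962624) * (u - (1/2)) ^ 5 * ((5/4) - u) ^ 1 + (11041151/95551488) * (u - (1/2)) ^ 6 := by ring
    rw [key]; exact b
  by_cases hc2 : u ≤ (23/16)
  · have hs : 0 ≤ u - (5/4) := by linarith [not_le.1 hc1]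
    have ht : 0 ≤ (23/16) - u := by linarith
    have b := bern6 (11041151/23328) (2650493/1728) (226373195/124416) (411782233/373248) (410773289/663552) (1524377797/3981312) (10366469327/95551488) (u - (5/4)) ((23/16) - u) (by norm_num) (by norm_num) (by norm_num) (by norm_num) (by norm_num) (by norm_num) (by norm_num) hs ht
    have key : (925827/262144) * u ^ 0 + (-91029/32768) * u ^ 1 + (-271075/65536) * u ^ 2 + (128861/32768) * u ^ 3 + (225219/262144) * u ^ 4 + (-50593/32768) * u ^ 5 + (46655/131072) * u ^ 6 =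
        (11041151/23328) * ((23/16) - u) ^ 6 + (2650493/1728) * (u - (5/4)) ^ 1 * ((23/16) - u) ^ 5 + (226373195/124416) * (u - (5/4)) ^ 2 * ((23/16) - u) ^ 4 + (411782233/373248) * (u - (5/4)) ^ 3 * ((23/16) - u) ^ 3 + (410773289/663552) * (u - (5/4)) ^ 4 * ((23/16) - u) ^ 2 + (1524377797/3981312) * (u - (5/4)) ^ 5 * ((23/16) - u) ^ 1 + (10366469327/95551488) * (u - (5/4)) ^ 6 := by ring
    rw [key]; exact b
  by_cases hc3 : u ≤ (13/8)
  · have hs : 0 ≤ u - (23/16) := by linarith [not_le.1 hc2]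
    have ht : 0 ≤ (13/8) - u := by linarith
    have b := bern6 (10366469327/95551488) (2439237911/2654208) (26274070163/7962624) (17594593265/2985984) (3625950409/663552) (1251363701/497664) (677237831/1492992) (u - (23/16)) ((13/8) - u) (by norm_num) (by norm_num) (by norm_num) (by norm_num) (by norm_num) (by norm_num) (by norm_num) hs ht
    have key : (925827/262144) * u ^ 0 + (-91029/32768) * u ^ 1 + (-271075/65536) * u ^ 2 + (128861/32768) * u ^ 3 + (225219/262144) * u ^ 4 + (-50593/32768) * u ^ 5 + (46655/131072) * u ^ 6 =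
        (10366469327/95551488) * ((13/8) - u) ^ 6 + (2439237911/2654208) * (u - (23/16)) ^ 1 * ((13/8) - u) ^ 5 + (26274070163/7962624) * (u - (23/16)) ^ 2 * ((13/8) - u) ^ 4 + (17594593265/2985984) * (u - (23/16)) ^ 3 * ((13/8) - u) ^ 3 + (3625950409/663552) * (u - (23/16)) ^ 4 * ((13/8) - u) ^ 2 + (1251363701/497664) * (u - (23/16)) ^ 5 * ((13/8) - u) ^ 1 + (677237831/1492992) * (u - (23/16)) ^ 6 := by ring
    rw [key]; exact b
  by_cases hc4 : u ≤ (29/16)
  · have hs : 0 ≤ u - (13/8) := by linarith [not_le.1 hc3]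
    have ht : 0 ≤ (29/16) - u := by linarith
    have b := bern6 (677237831/1492992) (485862541/165888) (15002329667/1990656) (29328439139/2985984) (6017020235/884736) (18862541159/7962624) (31458150887/95551488) (u - (13/8)) ((29/16) - u) (by norm_num) (by norm_num) (by norm_num) (by norm_num) (by norm_num) (by norm_num) (by norm_num) hs ht
    have key : (925827/262144) * u ^ 0 + (-91029/32768) * u ^ 1 + (-271075/65536) * u ^ 2 + (128861/32768) * u ^ 3 + (225219/262144) * u ^ 4 + (-50593/32768) * u ^ 5 + (46655/131072) * u ^ 6 =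
        (677237831/1492992) * ((29/16) - u) ^ 6 + (485862541/165888) * (u - (13/8)) ^ 1 * ((29/16) - u) ^ 5 + (15002329667/1990656) * (u - (13/8)) ^ 2 * ((29/16) - u) ^ 4 + (29328439139/2985984) * (u - (13/8)) ^ 3 * ((29/16) - u) ^ 3 + (6017020235/884736) * (u - (13/8)) ^ 4 * ((29/16) - u) ^ 2 + (18862541159/7962624) * (u - (13/8)) ^ 5 * ((29/16) - u) ^ 1 + (31458150887/95551488) * (u - (13/8)) ^ 6 := by ring
    rw [key]; exact b
  have hs : 0 ≤ u - (29/16) := by linarith [not_le.1 hc4]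
  have ht : 0 ≤ (2) - u := by linarith
  have b := bern6 (31458150887/95551488) (3644563/2304) (713078905/248832) (1827086/729) (107731/81) (165856/243) (179392/729) (u - (29/16)) ((2) - u) (by norm_num) (by norm_num) (by norm_num) (by norm_num) (by norm_num) (by norm_num) (by norm_num) hs ht
  have key : (925827/262144) * u ^ 0 + (-91029/32768) * u ^ 1 + (-271075/65536) * u ^ 2 + (128861/32768) * u ^ 3 + (225219/262144) * u ^ 4 + (-50593/32768) * u ^ 5 + (46655/131072) * u ^ 6 =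
      (31458150887/95551488) * ((2) - u) ^ 6 + (3644563/2304) * (u - (29/16)) ^ 1 * ((2) - u) ^ 5 + (713078905/248832) * (u - (29/16)) ^ 2 * ((2) - u) ^ 4 + (1827086/729) * (u - (29/16)) ^ 3 * ((2) - u) ^ 3 + (107731/81) * (u - (29/16)) ^ 4 * ((2) - u) ^ 2 + (165856/243) * (u - (29/16)) ^ 5 * ((2) - u) ^ 1 + (179392/729) * (u - (29/16)) ^ 6 := by ring
  rw [key]; exact b

theorem apx1 (u : ℝ) (hl : -1 ≤ u) (hr : u ≤ 2) : (1 + u) * R1 u ≤ 1 := by
  have h := b1_nonneg u hl hr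
  have e : (1 + u) * R1 u = 1 - u ^ 4 * (1 - (1 + u) * G1 u) := by
    unfold R1; ring
  rw [e]
  have : 0 ≤ u ^ 4 * (1 - (1 + u) * G1 u) := mul_nonneg (by positivity) h
  linarith

theorem apx2 (u : ℝ) (hl : -1 ≤ u) (hr : u ≤ 2) : (1 + u) ^ 2 * R2 u ≤ 1 := by
  have h := b2_nonneg u hl hr
  have e : (1 + u) ^ 2 * R2 u = 1 - u ^ 4 * ((5 + 4 * u) - (1 + u) ^ 2 * G2 u) := by
    unfold R2; ring
  rw [e]
  have : 0 ≤ u ^ 4 * ((5 + 4 * u) - (1 + u) ^ 2 * G2 u) := mul_nonneg (by positivity) h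
  linarith

theorem apx3 (u : ℝ) (hl : -1 ≤ u) (hr : u ≤ 2) : (1 + u) ^ 3 * R3 u ≤ 1 := by
  have h := b3_nonneg u hl hr
  have e : (1 + u) ^ 3 * R3 u = 1 - u ^ 4 * ((15 + 24 * u + 10 * u ^ 2) - (1 + u) ^ 3 * G3 u) := by
    unfold R3; ring
  rw [e]
  have : 0 ≤ u ^ 4 * ((15 + 24 * u + 10 * u ^ 2) - (1 + u) ^ 3 * G3 u) := mul_nonneg (by positivity) h
  linarith

end Vale.Agent.P154q3.C
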