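import Vale.Agent.P154q3.TMQSound
import Vale.Agent.P154q3.C.Inp.F0
import Vale.Agent.P154q3.C.Inp.F1

namespace Vale.Agent.P154q3.C

open Vale.Agent.P154q4.TMC Vale.Agent.P154q4.TMS Vale.Agent.P154q3.TMQ Vale.Agent.P154q3.TMQS Inp

set_option maxRecDepth 1000000 in
theorem covInp : Cov3 DInp ⟨0, 11184811, 0, 10066330, 0, 0⟩ ⟨0, 33554432, 0, 16777216, 0, 0⟩ :=
  (Cov3_zs _ 0 5592405 _ _ (Cov3_zt _ 6849270 _ _ (by decide +kernel) (Cov3_ys _ 0 16777216 _ _ (chkRoot3_sound _ _ _ _ c0) (Cov3_zs _ 0 2796202 _ _ (Cov3_zt _ 4843165 _ _ (by decide +kernel) (Cov3_ys _ 0 25165824 _ _ (chkRoot3_sound _ _ _ _ c1) (chkRoot3_sound _ _ _ _ c2))) (Cov3_ys _ 0 25165824 _ _ (chkRoot3_sound _ _ _ _ c3) (Cov3_zs _ 0 4194303 _ _ (Cov3_zt _ 5931641 _ _ (by decide +kernel) (Cov3_ys _ 1 8388608 _ _ (chkRoot3_sound _ _ _ _ c4)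 (Cov3_zs _ 1 2965820 _ _ (chkRoot3_sound _ _ _ _ c5) (chkRoot3_sound _ _ _ _ c6)))) (Cov3_ys _ 1 8388608 _ _ (chkRoot3_sound _ _ _ _ c7) (Cov3_zs _ 1 3424635 _ _ (chkRoot3_sound _ _ _ _ c8) (chkRoot3_sound _ _ _ _ c9)))))))) (Cov3_ys _ 1 8388608 _ _ (chkRoot3_sound _ _ _ _ c10) (Cov3_zs _ 1 5033165 _ _ (Cov3_ys _ 0 16777216 _ _ (chkRoot3_sound _ _ _ _ c11) (Cov3_zs _ 0 8388608 _ _ (Cov3_zs _ 0 6990506 _ _ (Cov3_ys _ 0 25165824 _ _ (chkRoot3_sound _ _ _ _ c12) (chkRoot3_sound _ _ _ _ c13)) (chkRoot3_sound _ _ _ _ c14)) (Cov3_ys _ 1 12582912 _ _ (chkRoot3_sound _ _ _ _ c15) (Cov3_zs _ 1 2516582 _ _ (Cov3_ys _ 0 25165824 _ _ (chkRoot3_sound _ _ _ _ c16) (chkRoot3_sound _ _ _ _ c17)) (chkRoot3_sound _ _ _ _ c18))))) (Cov3_zt _ 9686331 _ _ (by decide +kernel) (Cov3_ys _ 0 16777216 _ _ (chkRoot3_sound _ _ _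 _ c19) (Cov3_zs _ 0 8388608 _ _ (Cov3_zt _ 8388609 _ _ (by decide +kernel) (Cov3_zs _ 0 6990506 _ _ (chkRoot3_sound _ _ _ _ c20) (chkRoot3_sound _ _ _ _ c21))) (chkRoot3_sound _ _ _ _ c22)))))))

end Vale.Agent.P154q3.C
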