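import Vale.Agent.P154q3.TMQSound
import Vale.Agent.P154q3.C.Ipn.F0

namespace Vale.Agent.P154q3.C

open Vale.Agent.P154q4.TMC Vale.Agent.P154q4.TMS Vale.Agent.P154q3.TMQ Vale.Agent.P154q3.TMQS Ipn

set_option maxRecDepth 1000000 in
theorem covIpn : Cov3 DIpn ⟨0, 33554432, 0, 16777216, 0, 0⟩ ⟨0, 11184811, 0, 10066330, 0, 0⟩ :=
  (Cov3_zs _ 0 16777216 _ _ (chkRoot3_sound _ _ _ _ c0) (Cov3_zs _ 0 25165824 _ _ (Cov3_zt _ 14529496 _ _ (by decide +kernel) (Cov3_zs _ 0 20971520 _ _ (chkRoot3_sound _ _ _ _ c1) (chkRoot3_sound _ _ _ _ c2))) (Cov3_zs _ 1 8388608 _ _ (chkRoot3_sound _ _ _ _ c3) (Cov3_ys _ 0 5592405 _ _ (chkRoot3_sound _ _ _ _ c4) (chkRoot3_sound _ _ _ _ c5)))))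

end Vale.Agent.P154q3.C
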