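import Vale.Agent.P154q4.TM

namespace Vale.Agent.P154q3.C

noncomputable section

open Vale.Agent.P154q4.TMC MT in
/-- Data of one sign branch. -/
def DMnn : Data :=
  ⟨false, false, 29,
   (p (p (p nil nil) nil) (t (p (p (p nil nil) (t (p (t nil nil) nil) nil)) nil) nil)),
   (p (p (p nil nil) nil) (t (p (p (p nil nil) (t (p (t nil nil) nil) nil)) nil) nil)),
  [[Int.ofNat 205520896, Int.negSucc 124780543, Int.ofNat 0, Int.ofNat 0, Int.negSucc 104857599, Int.ofNat 0, Int.ofNat 0, Int.ofNat 0, Int.ofNat 0, Int.ofNat 0, Int.ofNat 0],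
  [Int.negSucc 124780543, Int.ofNat 186053600, Int.negSucc 145455599, Int.ofNat 0, Int.ofNat 252182528, Int.negSucc 314572799, Int.ofNat 0, Int.ofNat 0, Int.ofNat 0, Int.ofNat 0, Int.ofNat 0],
  [Int.ofNat 0, Int.negSucc 145455599, Int.ofNat 82613100, Int.negSucc 36191099, Int.ofNat 0, Int.ofNat 145455600, Int.negSucc 150308099, Int.ofNat 0, Int.negSucc 56487599, Int.ofNat 13160400, Int.ofNat 0],
  [Int.ofNat 0, Int.ofNat 0, Int.negSucc 36191099, Int.ofNat 41307875, Int.ofNat 0, Int.ofNat 0, Int.ofNat 29610900, Int.negSucc 8170824, Int.ofNat 13160400, Int.negSucc 37626999, Int.ofNat 2108600],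
  [Int.negSucc 104857599, Int.ofNat 252182528, Int.ofNat 0, Int.ofNat 0, Int.negSucc 104857599, Int.ofNat 209715200, Int.ofNat 0, Int.ofNat 0, Int.ofNat 0, Int.ofNat 0, Int.ofNat 0],
  [Int.ofNat 0, Int.negSucc 314572799, Int.ofNat 145455600, Int.ofNat 0, Int.ofNat 209715200, Int.negSucc 268596399, Int.ofNat 167009000, Int.ofNat 0, Int.ofNat 193940800, Int.ofNat 0, Int.ofNat 0],
  [Int.ofNat 0, Int.ofNat 0, Int.negSucc 150308099, Int.ofNat 29610900, Int.ofNat 0, Int.ofNat 167009000, Int.negSucc 151170499, Int.ofNat 11070150, Int.negSucc 66803599, Int.ofNat 78962400, Int.ofNat 0],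
  [Int.ofNat 0, Int.ofNat 0, Int.ofNat 0, Int.negSucc 8170824, Int.ofNat 0, Int.ofNat 0, Int.ofNat 11070150, Int.negSucc 18977399, Int.ofNat 0, Int.negSucc 4217199, Int.ofNat 6325800],
  [Int.ofNat 0, Int.ofNat 0, Int.negSucc 56487599, Int.ofNat 13160400, Int.ofNat 0, Int.ofNat 193940800, Int.negSucc 66803599, Int.ofNat 0, Int.ofNat 225950400, Int.negSucc 52641599, Int.ofNat 0],
  [Int.ofNat 0, Int.ofNat 0, Int.ofNat 13160400, Int.negSucc 37626999, Int.ofNat 0, Int.ofNat 0, Int.ofNat 78962400, Int.negSucc 4217199, Int.negSucc 52641599, Int.ofNat 150508000, Int.negSucc 8434399],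
  [Int.ofNat 0, Int.ofNat 0, Int.ofNat 0, Int.ofNat 2108600, Int.ofNat 0, Int.ofNat 0, Int.ofNat 0, Int.ofNat 6325800, Int.ofNat 0, Int.negSucc 8434399, Int.negSucc 16868799]],
  false, 0, 1⟩

end

end Vale.Agent.P154q3.C
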