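import Vale.Agent.P154q3.TMQSound
import Vale.Agent.P154q3.C.Mnp.F0

namespace Vale.Agent.P154q3.C

open Vale.Agent.P154q4.TMC Vale.Agent.P154q4.TMS Vale.Agent.P154q3.TMQ Vale.Agent.P154q3.TMQS Mnp

set_option maxRecDepth 1000000 in
theorem covMnp : Cov3 DMnp ⟨0, 11184811, 0, 10066330, 0, 0⟩ ⟨0, 33554432, 0, 16777216, 0, 0⟩ :=
  (chkRoot3_sound _ _ _ _ c0)

end Vale.Agent.P154q3.C
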