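import Vale.Agent.P154q3.GW
import Vale.Agent.P154q3.TMQSound
import Vale.Agent.P154q3.C.Apx
import Vale.Agent.P154q3.C.Ident
import Vale.Agent.P154q3.C.CovIpp
import Vale.Agent.P154q3.C.CovIpn
import Vale.Agent.P154q3.C.CovInp
import Vale.Agent.P154q3.C.CovInn
import Vale.Agent.P154q3.C.CovMpp
import Vale.Agent.P154q3.C.CovMpn
import Vale.Agent.P154q3.C.CovMnp
import Vale.Agent.P154q3.C.CovMnn
/-!
Assembly of the certificate: the two pointwise inequalities of the master theorem for the cone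
potential `τ - k p²` with `k = 27/100`, for the three-colour channel, for all `0 ≤ λ < 1`.
-/

open Filter Topology Finset BigOperators
open Vale.Agent.P154 Vale.Agent.P154q3 Vale.Agent.P154q4.TMC Vale.Agent.P154q4.TMS Vale.Agent.P154q3.TMQS

namespace Vale.Agent.P154q3.C

noncomputable section

/-- The third elementary invariant of a colour vector. -/
def tOf (v : Fin 3 → ℝ) : ℝ := v 0 * v 1 * v 2

/-- The cone potential. -/
def Lk (v : Fin 3 → ℝ) : ℝ := tOf v - kk * s2 v ^ 2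

lemma third (v : Fin 3 → ℝ) (hs : ∑ i, v i = 0) : v 2 = -v 0 - v 1 := by
  rw [Fin.sum_univ_three] at hs
  linarith

lemma s2_eq (v : Fin 3 → ℝ) (hs : ∑ i, v i = 0) :
    3 * s2 v = 2 * v 0 ^ 2 + 2 * v 0 * v 1 + 2 * v 1 ^ 2 := by
  unfold s2
  rw [Fin.sum_univ_three, third v hs]
  ring

lemma tOf_eq (v : Fin 3 → ℝ) (hs : ∑ i, v i = 0) : tOf v = v 0 * v 1 * (-v 0 - v 1) := by
  unfold tOf
  rw [third v hs]

lemma disc_le (v : Fin 3 → ℝ) (hs : ∑ i, v i = 0) : 2 * tOf v ^ 2 ≤ s2 v ^ 3 := by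
  have e : s2 v ^ 3 - 2 * tOf v ^ 2
      = (2 / 27) * ((v 0 - v 1) * (v 0 - (-v 0 - v 1)) * (v 1 - (-v 0 - v 1))) ^ 2 := by
    have h := s2_eq v hs
    have h2 : s2 v = (2 * v 0 ^ 2 + 2 * v 0 * v 1 + 2 * v 1 ^ 2) / 3 := by linarith
    rw [h2, tOf_eq v hs]
    ring
  have : 0 ≤ (2 / 27 : ℝ) * ((v 0 - v 1) * (v 0 - (-v 0 - v 1)) * (v 1 - (-v 0 - v 1))) ^ 2 := by
    positivity
  linarith

lemma z_nonneg (v : Fin 3 → ℝ) (hv : Msg v) : 0 ≤ 1 - 3 / 2 * s2 v + tOf v := by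
  have h0 := hv.2 0
  have h1 := hv.2 1
  have h2 := hv.2 2
  have e : 1 - 3 / 2 * s2 v + tOf v = (1 + v 0) * (1 + v 1) * (1 + v 2) := by
    have h := s2_eq v hv.1
    have h3 : s2 v = (2 * v 0 ^ 2 + 2 * v 0 * v 1 + 2 * v 1 ^ 2) / 3 := by linarith
    rw [h3, tOf_eq v hv.1, third v hv.1]
    ring
  rw [e]
  have a0 : 0 ≤ 1 + v 0 := by linarith
  have a1 : 0 ≤ 1 + v 1 := by linarith
  have a2 : 0 ≤ 1 + v 2 := by linarith
  positivity

lemma s2_le2 (v : Fin 3 → ℝ) (hv : Msg v) : s2 v ≤ 2 := GW3.s2_le3 hv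

lemma t_abs (v : Fin 3 → ℝ) (hv : Msg v) : |tOf v| ≤ s2 v := by
  have h1 := disc_le v hv.1
  have h2 := s2_le2 v hv
  have h3 := s2_nonneg v
  have h4 : tOf v ^ 2 ≤ s2 v ^ 2 := by
    have : s2 v ^ 3 ≤ 2 * s2 v ^ 2 := by nlinarith [sq_nonneg (s2 v)]
    linarith
  have := sq_le_sq.mp h4
  rwa [abs_of_nonneg h3] at this

/-- The coordinate `T` of a colour vector. -/
def coT (v : Fin 3 → ℝ) : ℝ := |tOf v| / s2 v

lemma t_zero (v : Fin 3 → ℝ) (hs : ∑ i, v i = 0) (h : s2 v = 0) : tOf v = 0 := by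
  have h1 := disc_le v hs
  rw [h] at h1
  have : tOf v ^ 2 ≤ 0 := by nlinarith
  exact pow_eq_zero_iff (two_ne_zero) |>.1 (le_antisymm this (sq_nonneg _))

lemma co_abs (v : Fin 3 → ℝ) (hs : ∑ i, v i = 0) : s2 v * coT v = |tOf v| := by
  unfold coT
  by_cases hp : s2 v = 0
  · simp [hp, t_zero v hs hp]
  · field_simp

lemma co_pos (v : Fin 3 → ℝ) (hs : ∑ i, v i = 0) (ht : 0 ≤ tOf v) :
    tOf v = ((1 : ℤ) : ℝ) * (s2 v * coT v) := by
  rw [co_abs v hs, abs_of_nonneg ht]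
  simp

lemma co_neg (v : Fin 3 → ℝ) (hs : ∑ i, v i = 0) (ht : tOf v < 0) :
    tOf v = ((-1 : ℤ) : ℝ) * (s2 v * coT v) := by
  rw [co_abs v hs, abs_of_neg ht]
  simp

lemma coT_facts (v : Fin 3 → ℝ) (hv : Msg v) (hp : 0 < s2 v) :
    0 ≤ coT v ∧ 2 * coT v ^ 2 ≤ s2 v := by
  have h0 : 0 ≤ coT v := div_nonneg (abs_nonneg _) hp.le
  refine ⟨h0, ?_⟩
  have h1 := disc_le v hv.1
  have h2 := co_abs v hv.1
  have h3 : (s2 v * coT v) ^ 2 = tOf v ^ 2 := by rw [h2, sq_abs]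
  have h4 : s2 v ^ 2 * (2 * coT v ^ 2) ≤ s2 v ^ 2 * s2 v := by nlinarith
  exact le_of_mul_le_mul_left h4 (by positivity)

lemma inbox_of (p2 t2 : ℕ) (P T : ℝ) (h0 : 0 ≤ P) (h1 : 0 ≤ T) (h2 : 2 ^ 24 * P ≤ p2)
    (h3 : 2 ^ 24 * T ≤ t2) : InBox ⟨0, p2, 0, t2, 0, 0⟩ (P, T, 0) := by
  refine ⟨?_, h2, ?_, h3, ?_, ?_⟩
  · show ((0 : ℕ) : ℝ) ≤ 2 ^ 24 * P
    rw [Nat.cast_zero]
    exact mul_nonneg (by positivity) h0
  · show ((0 : ℕ) : ℝ) ≤ 2 ^ 24 * T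
    rw [Nat.cast_zero]
    exact mul_nonneg (by positivity) h1
  · show ((0 : ℕ) : ℝ) ≤ 2 ^ 24 * 0
    simp
  · show (2 : ℝ) ^ 24 * 0 ≤ ((0 : ℕ) : ℝ)
    simp

lemma reg_pos (v : Fin 3 → ℝ) (hv : Msg v) (ht : 0 ≤ tOf v) (hp : 0 < s2 v) :
    InBox ⟨0, 33554432, 0, 16777216, 0, 0⟩ (s2 v, coT v, 0) ∧ Reg3 true (s2 v, coT v, 0) := by
  obtain ⟨h0, h1⟩ := coT_facts v hv hp
  have h2 := s2_le2 v hv
  have h3 := co_abs v hv.1
  have hz := z_nonneg v hv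
  rw [abs_of_nonneg ht] at h3
  constructor
  · refine inbox_of _ _ _ _ hp.le h0 ?_ ?_
    · push_cast; linarith
    · push_cast
      have : coT v ≤ 1 := by nlinarith
      linarith
  · refine ⟨hp, h0, h1, ?_⟩
    simp only [if_true, one_mul]
    rw [h3]
    exact hz

lemma reg_neg (v : Fin 3 → ℝ) (hv : Msg v) (ht : tOf v < 0) (hp : 0 < s2 v) :
    InBox ⟨0, 11184811, 0, 10066330, 0, 0⟩ (s2 v, coT v, 0) ∧ Reg3 false (s2 v, coT v, 0) := by
  obtain ⟨h0, h1⟩ := coT_facts v hv hp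
  have h3 := co_abs v hv.1
  have hz := z_nonneg v hv
  rw [abs_of_neg ht] at h3
  have h2 : s2 v ≤ 2 / 3 := by linarith
  constructor
  · refine inbox_of _ _ _ _ hp.le h0 ?_ ?_
    · push_cast; linarith
    · push_cast
      have : coT v ≤ 3 / 5 := by nlinarith
      linarith
  · refine ⟨hp, h0, h1, ?_⟩
    simp only [Bool.false_eq_true, if_false]
    have e : (-1 : ℝ) * (s2 v * coT v) = tOf v := by rw [h3]; ring
    rw [e]
    exact hz

theorem nn_of_cov (D : Data) (N : ℕ) (C : ℤ) (hC : 0 < C) (l : List (ℤ × ℕ × ℕ × ℕ × ℕ)) (σ1 σ2 : ℤ)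
    (hconv : ∀ P T Q R : ℝ, (N : ℝ) * (P * (Q * tabVal (P, T, 0) (Q, R, 0) (mexps D.zt) D.cf (mexps D.yt)))
      = (C : ℝ) * evT l (3 * P) ((σ1 : ℝ) * (P * T)) (3 * Q) ((σ2 : ℝ) * (Q * R)))
    {ZB YB : Box} (hcov : Cov3 D ZB YB) {P T Q R : ℝ} (hP : 0 ≤ P) (hQ : 0 ≤ Q)
    (hz : 0 < P → InBox ZB (P, T, 0) ∧ Reg3 D.sz (P, T, 0))
    (hy : 0 < Q → InBox YB (Q, R, 0) ∧ Reg3 D.sy (Q, R, 0)) :
    0 ≤ evT l (3 * P) ((σ1 : ℝ) * (P * T)) (3 * Q) ((σ2 : ℝ) * (Q * R)) := by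
  have hC' : (0 : ℝ) < C := by exact_mod_cast hC
  have h := hconv P T Q R
  have key : 0 ≤ (C : ℝ) * evT l (3 * P) ((σ1 : ℝ) * (P * T)) (3 * Q) ((σ2 : ℝ) * (Q * R)) := by
    rw [← h]
    rcases hP.eq_or_lt with h0 | h0
    · rw [← h0]; simp
    rcases hQ.eq_or_lt with h1 | h1
    · rw [← h1]; simp
    obtain ⟨a1, a2⟩ := hz h0
    obtain ⟨b1, b2⟩ := hy h1
    have h2 := hcov _ _ a1 b1 a2 b2
    have h3 : 0 ≤ tabVal (P, T, 0) (Q, R, 0) (mexps D.zt) D.cf (mexps D.yt) := by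
      unfold Aval at h2
      have h5 : (0 : ℝ) < 2 ^ D.s := by positivity
      have h6 := mul_nonneg h2 h5.le
      rwa [div_mul_cancel₀ _ h5.ne'] at h6
    exact mul_nonneg (Nat.cast_nonneg _) (mul_nonneg h0.le (mul_nonneg h1.le h3))
  exact nonneg_of_mul_nonneg_right key hC'

theorem evI_nonneg (z m : Fin 3 → ℝ) (hz : Msg z) (hm : Msg m) :
    0 ≤ evT termsFI (3 * s2 z) (tOf z) (3 * s2 m) (tOf m) := by
  have hp := s2_nonneg z
  have hq := s2_nonneg m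
  rcases le_or_gt 0 (tOf z) with h1 | h1 <;> rcases le_or_gt 0 (tOf m) with h2 | h2
  · have := nn_of_cov DIpp _ _ (by norm_num) termsFI 1 1 convIpp covIpp hp hq (T := coT z) (R := coT m)
      (fun h => reg_pos z hz h1 h) (fun h => reg_pos m hm h2 h)
    rwa [← co_pos z hz.1 h1, ← co_pos m hm.1 h2] at this
  · have := nn_of_cov DIpn _ _ (by norm_num) termsFI 1 (-1) convIpn covIpn hp hq (T := coT z) (R := coT m)
      (fun h => reg_pos z hz h1 h) (fun h => reg_neg m hm h2 h)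
    rwa [← co_pos z hz.1 h1, ← co_neg m hm.1 h2] at this
  · have := nn_of_cov DInp _ _ (by norm_num) termsFI (-1) 1 convInp covInp hp hq (T := coT z) (R := coT m)
      (fun h => reg_neg z hz h1 h) (fun h => reg_pos m hm h2 h)
    rwa [← co_neg z hz.1 h1, ← co_pos m hm.1 h2] at this
  · have := nn_of_cov DInn _ _ (by norm_num) termsFI (-1) (-1) convInn covInn hp hq (T := coT z) (R := coT m)
      (fun h => reg_neg z hz h1 h) (fun h => reg_neg m hm h2 h)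
    rwa [← co_neg z hz.1 h1, ← co_neg m hm.1 h2] at this

theorem evM_nonneg (z m : Fin 3 → ℝ) (hz : Msg z) (hm : Msg m) :
    0 ≤ evT termsFM (3 * s2 z) (tOf z) (3 * s2 m) (tOf m) := by
  have hp := s2_nonneg z
  have hq := s2_nonneg m
  rcases le_or_gt 0 (tOf z) with h1 | h1 <;> rcases le_or_gt 0 (tOf m) with h2 | h2
  · have := nn_of_cov DMpp _ _ (by norm_num) termsFM 1 1 convMpp covMpp hp hq (T := coT z) (R := coT m)
      (fun h => reg_pos z hz h1 h) (fun h => reg_pos m hm h2 h)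
    rwa [← co_pos z hz.1 h1, ← co_pos m hm.1 h2] at this
  · have := nn_of_cov DMpn _ _ (by norm_num) termsFM 1 (-1) convMpn covMpn hp hq (T := coT z) (R := coT m)
      (fun h => reg_pos z hz h1 h) (fun h => reg_neg m hm h2 h)
    rwa [← co_pos z hz.1 h1, ← co_neg m hm.1 h2] at this
  · have := nn_of_cov DMnp _ _ (by norm_num) termsFM (-1) 1 convMnp covMnp hp hq (T := coT z) (R := coT m)
      (fun h => reg_neg z hz h1 h) (fun h => reg_pos m hm h2 h)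
    rwa [← co_neg z hz.1 h1, ← co_pos m hm.1 h2] at this
  · have := nn_of_cov DMnn _ _ (by norm_num) termsFM (-1) (-1) convMnn covMnn hp hq (T := coT z) (R := coT m)
      (fun h => reg_neg z hz h1 h) (fun h => reg_neg m hm h2 h)
    rwa [← co_neg z hz.1 h1, ← co_neg m hm.1 h2] at this

/-! ### Scalar bounds -/

lemma hom_calc (x0 x1 x2 S D X : ℝ) (hS : S = x0 + x1 + x2) (hS0 : S ≠ 0) (hD : D = S / 3)
    (hX : X = (3 * (x0 ^ 2 + x1 ^ 2 + x2 ^ 2) - S ^ 2) / 9) :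
    ((3 * x0 / S - 1) ^ 2 + (3 * x1 / S - 1) ^ 2 + (3 * x2 / S - 1) ^ 2) / 3 = X / D ^ 2
    ∧ (3 * x0 / S - 1) * (3 * x1 / S - 1) * (3 * x2 / S - 1)
      = (x0 * x1 * x2 - D ^ 3 + 3 / 2 * D * X) / D ^ 3 := by
  subst hD hX
  constructor
  · field_simp
    rw [hS]
    ring
  · field_simp
    rw [hS]
    ring

lemma scal_I (k D P X r1 r2 r3 : ℝ) (hk : 0 ≤ k) (hD : 0 < D) (hP : 0 ≤ P) (hX0 : 0 ≤ X)
    (hX : X ≤ 2 * D ^ 2) (h1 : D * r1 ≤ 1) (h2 : D ^ 2 * r2 ≤ 1) (h3 : D ^ 3 * r3 ≤ 1) :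
    P * r2 - D + 3 / 2 * X * r1 - k * (4 * D - (4 * D ^ 4 - X ^ 2) * r3)
      ≤ D * ((P - D ^ 3 + 3 / 2 * D * X) / D ^ 3 - k * (X / D ^ 2) ^ 2) := by
  have e : D * ((P - D ^ 3 + 3 / 2 * D * X) / D ^ 3 - k * (X / D ^ 2) ^ 2)
      = P * (1 / D ^ 2) - D + 3 / 2 * (X * (1 / D))
        - k * (4 * D) + k * ((4 * D ^ 4 - X ^ 2) * (1 / D ^ 3)) := by
    field_simp
    ring
  have a1 : r1 ≤ 1 / D := by rw [le_div_iff₀ hD]; linarith
  have a2 : r2 ≤ 1 / D ^ 2 := by rw [le_div_iff₀ (by positivity)]; linarith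
  have a3 : r3 ≤ 1 / D ^ 3 := by rw [le_div_iff₀ (by positivity)]; linarith
  have hc : 0 ≤ 4 * D ^ 4 - X ^ 2 := by
    have : 0 ≤ (2 * D ^ 2 - X) * (2 * D ^ 2 + X) := mul_nonneg (by linarith) (by positivity)
    nlinarith
  have b2 := mul_le_mul_of_nonneg_left a2 hP
  have b1 := mul_le_mul_of_nonneg_left a1 hX0
  have b3 := mul_le_mul_of_nonneg_left (mul_le_mul_of_nonneg_left a3 hc) hk
  rw [e]
  have e2 : P * r2 - D + 3 / 2 * X * r1 - k * (4 * D - (4 * D ^ 4 - X ^ 2) * r3)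
      = P * r2 - D + 3 / 2 * (X * r1) - k * (4 * D) + k * ((4 * D ^ 4 - X ^ 2) * r3) := by ring
  rw [e2]
  linarith

lemma scal_M (D X r : ℝ) (hD : 0 < D) (hX : X ≤ 2 * D ^ 2) (h1 : D * r ≤ 1) :
    D * (X / D ^ 2) ≤ 2 * D - (2 * D ^ 2 - X) * r := by
  have e : D * (X / D ^ 2) = 2 * D - (2 * D ^ 2 - X) * (1 / D) := by
    field_simp
    ring
  have a1 : r ≤ 1 / D := by rw [le_div_iff₀ hD]; linarith
  have b := mul_le_mul_of_nonneg_left a1 (by linarith : 0 ≤ 2 * D ^ 2 - X)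
  rw [e]
  linarith

/-- The facts on the product vector. -/
lemma prod_facts (z w : Fin 3 → ℝ) (hz : Msg z) (hws : ∑ i, w i = 0) (hw : ∀ i, -1 < w i) :
    let a := z 0; let b := z 1; let c := w 0; let d := w 1
    0 < 1 + U3 a b c d / 3 ∧ U3 a b c d / 3 ≤ 2 ∧ 0 ≤ PR a b c d ∧ 0 ≤ X9 a b c d / 9
      ∧ X9 a b c d / 9 ≤ 2 * (1 + U3 a b c d / 3) ^ 2 := by
  intro a b c d
  have hz2 := third z hz.1
  have hw2 := third w hws
  have p0 : 0 ≤ 1 + a := by have := hz.2 0; simp only [a]; linarith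
  have p1 : 0 ≤ 1 + b := by have := hz.2 1; simp only [b]; linarith
  have p2 : 0 ≤ 1 - a - b := by have := hz.2 2; simp only [a, b]; linarith
  have q0 : 0 < 1 + c := by have := hw 0; simp only [c]; linarith
  have q1 : 0 < 1 + d := by have := hw 1; simp only [d]; linarith
  have q2 : 0 < 1 - c - d := by have := hw 2; simp only [c, d]; linarith
  have x0 : 0 ≤ x0R a c := mul_nonneg p0 q0.le
  have x1 : 0 ≤ x1R b d := mul_nonneg p1 q1.le
  have x2 : 0 ≤ x2R a b c d := mul_nonneg p2 q2.le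
  have hS : 3 + U3 a b c d = x0R a c + x1R b d + x2R a b c d := by
    unfold U3 x0R x1R x2R; ring
  have hμ : 0 < min (1 + c) (min (1 + d) (1 - c - d)) := lt_min q0 (lt_min q1 q2)
  have m0 := min_le_left (1 + c) (min (1 + d) (1 - c - d))
  have m1 := (min_le_right (1 + c) (min (1 + d) (1 - c - d))).trans (min_le_left _ _)
  have m2 := (min_le_right (1 + c) (min (1 + d) (1 - c - d))).trans (min_le_right _ _)
  generalize min (1 + c) (min (1 + d) (1 - c - d)) = μ at hμ m0 m1 m2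
  have h0 := mul_le_mul_of_nonneg_left m0 p0
  have h1 := mul_le_mul_of_nonneg_left m1 p1
  have h2 := mul_le_mul_of_nonneg_left m2 p2
  have hSpos : 0 < 3 + U3 a b c d := by
    rw [hS]
    unfold x0R x1R x2R
    nlinarith
  have hD : 0 < 1 + U3 a b c d / 3 := by linarith
  have hc0 : 1 + c ≤ 3 := by linarith
  have hc1 : 1 + d ≤ 3 := by linarith
  have hc2 : 1 - c - d ≤ 3 := by linarith
  have t0 := mul_le_mul_of_nonneg_left hc0 p0
  have t1 := mul_le_mul_of_nonneg_left hc1 p1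
  have t2 := mul_le_mul_of_nonneg_left hc2 p2
  have hS9 : 3 + U3 a b c d ≤ 9 := by
    rw [hS]
    unfold x0R x1R x2R
    nlinarith
  have hX9e : X9 a b c d = 3 * (x0R a c ^ 2 + x1R b d ^ 2 + x2R a b c d ^ 2) - (x0R a c + x1R b d + x2R a b c d) ^ 2 := by
    unfold X9
    rw [hS]
  refine ⟨hD, by linarith, ?_, ?_, ?_⟩
  · unfold PR
    positivity
  · rw [hX9e]
    nlinarith [sq_nonneg (x0R a c - x1R b d), sq_nonneg (x0R a c - x2R a b c d),
      sq_nonneg (x1R b d - x2R a b c d)]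
  · have e : (1 + U3 a b c d / 3) = (x0R a c + x1R b d + x2R a b c d) / 3 := by rw [← hS]; ring
    rw [e, hX9e]
    nlinarith [mul_nonneg x0 x1, mul_nonneg x0 x2, mul_nonneg x1 x2]

/-- The closed forms of the two-point potentials. -/
lemma Kp_forms (z w : Fin 3 → ℝ) (hzs : ∑ i, z i = 0) (hws : ∑ i, w i = 0)
    (hS0 : 3 + U3 (z 0) (z 1) (w 0) (w 1) ≠ 0) :
    let U := U3 (z 0) (z 1) (w 0) (w 1)
    let D := 1 + U / 3
    let X := X9 (z 0) (z 1) (w 0) (w 1) / 9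
    let P := PR (z 0) (z 1) (w 0) (w 1)
    Kp s2 z w = D * (X / D ^ 2)
      ∧ Kp Lk z w = D * ((P - D ^ 3 + 3 / 2 * D * X) / D ^ 3 - kk * (X / D ^ 2) ^ 2) := by
  intro U D X P
  have hz2 := third z hzs
  have hw2 := third w hws
  have h0 : (1 + z 0) * (1 + w 0) = x0R (z 0) (w 0) := rfl
  have h1 : (1 + z 1) * (1 + w 1) = x1R (z 1) (w 1) := rfl
  have h2 : (1 + z 2) * (1 + w 2) = x2R (z 0) (z 1) (w 0) (w 1) := by
    rw [hz2, hw2]; unfold x2R; ring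
  have hS : 3 + U = x0R (z 0) (w 0) + x1R (z 1) (w 1) + x2R (z 0) (z 1) (w 0) (w 1) := by
    simp only [U]
    unfold U3 x0R x1R x2R; ring
  have hsum : ∑ i, (1 + z i) * (1 + w i) = 3 + U := by
    rw [Fin.sum_univ_three, h0, h1, h2, hS]
  have hc := hom_calc (x0R (z 0) (w 0)) (x1R (z 1) (w 1)) (x2R (z 0) (z 1) (w 0) (w 1)) (3 + U) D X hS hS0
    (by simp only [D]; ring) (by simp only [X, X9, U])
  obtain ⟨c1, c2⟩ := hc
  have hD3 : (3 + U) / 3 = D := by simp only [D]; ring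
  constructor
  · unfold Kp Hom
    rw [hsum, hD3]
    congr 1
    unfold s2
    simp only [Fin.sum_univ_three, h0, h1, h2, hsum]
    rw [c1]
  · unfold Kp Hom
    rw [hsum, hD3]
    congr 1
    unfold Lk tOf s2
    simp only [Fin.sum_univ_three, h0, h1, h2, hsum]
    rw [c1, c2]
    rfl

theorem Kp_L_ge (z w : Fin 3 → ℝ) (hz : Msg z) (hws : ∑ i, w i = 0) (hw : ∀ i, -1 < w i) :
    PlowI (z 0) (z 1) (w 0) (w 1) ≤ Kp Lk z w := by
  obtain ⟨f1, f2, f3, f4, f5⟩ := prod_facts z w hz hws hw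
  have hS0 : 3 + U3 (z 0) (z 1) (w 0) (w 1) ≠ 0 := by
    have : 0 < 3 + U3 (z 0) (z 1) (w 0) (w 1) := by linarith
    exact this.ne'
  rw [(Kp_forms z w hz.1 hws hS0).2]
  have hu : -1 ≤ U3 (z 0) (z 1) (w 0) (w 1) / 3 := by linarith
  unfold PlowI
  exact scal_I kk _ _ _ _ _ _ (by unfold kk; norm_num) f1 f3 f4 f5 (apx1 _ hu f2) (apx2 _ hu f2) (apx3 _ hu f2)

theorem Kp_s2_le (z w : Fin 3 → ℝ) (hz : Msg z) (hws : ∑ i, w i = 0) (hw : ∀ i, -1 < w i) :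
    Kp s2 z w ≤ UM (z 0) (z 1) (w 0) (w 1) := by
  obtain ⟨f1, f2, f3, f4, f5⟩ := prod_facts z w hz hws hw
  have hS0 : 3 + U3 (z 0) (z 1) (w 0) (w 1) ≠ 0 := by
    have : 0 < 3 + U3 (z 0) (z 1) (w 0) (w 1) := by linarith
    exact this.ne'
  rw [(Kp_forms z w hz.1 hws hS0).1]
  have hu : -1 ≤ U3 (z 0) (z 1) (w 0) (w 1) / 3 := by linarith
  unfold UM
  exact scal_M _ _ _ f1 f5 (apx1 _ hu f2)

/-! ### The sum over the permutations -/

private def gg0 : Equiv.Perm (Fin 3) := ⟨![0,1,2], ![0,1,2], by decide, by decide⟩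
private def gg1 : Equiv.Perm (Fin 3) := ⟨![0,2,1], ![0,2,1], by decide, by decide⟩
private def gg2 : Equiv.Perm (Fin 3) := ⟨![1,0,2], ![1,0,2], by decide, by decide⟩
private def gg3 : Equiv.Perm (Fin 3) := ⟨![1,2,0], ![2,0,1], by decide, by decide⟩
private def gg4 : Equiv.Perm (Fin 3) := ⟨![2,0,1], ![1,2,0], by decide, by decide⟩
private def gg5 : Equiv.Perm (Fin 3) := ⟨![2,1,0], ![2,1,0], by decide, by decide⟩

private def ggL : List (Equiv.Perm (Fin 3)) := [gg0, gg1, gg2, gg3, gg4, gg5]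
private lemma ggL_nodup : ggL.Nodup := by decide
private lemma ggL_all (g : Equiv.Perm (Fin 3)) : g ∈ ggL := by revert g; decide

private lemma sum_ggL (f : Equiv.Perm (Fin 3) → ℝ) : ∑ g, f g = (ggL.map f).sum := by
  have h : ggL.toFinset = Finset.univ :=
    Finset.eq_univ_iff_forall.2 (fun g => List.mem_toFinset.2 (ggL_all g))
  rw [← h, List.sum_toFinset _ ggL_nodup]

theorem sum_perm3 (F : ℝ → ℝ → ℝ) (w : Fin 3 → ℝ) :
    ∑ g : Equiv.Perm (Fin 3), F (w (g 0)) (w (g 1))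
      = F (w 0) (w 1) + F (w 0) (w 2) + F (w 1) (w 0) + F (w 1) (w 2) + F (w 2) (w 0) + F (w 2) (w 1) := by
  rw [sum_ggL]
  show F (w 0) (w 1) + (F (w 0) (w 2) + (F (w 1) (w 0) + (F (w 1) (w 2) + (F (w 2) (w 0) + (F (w 2) (w 1) + 0))))) = _
  ring

/-! ### The two inequalities of the master theorem -/

lemma Lk_smul_ge {lam : ℝ} (h0 : 0 ≤ lam) (h1 : lam ≤ 1) (v : Fin 3 → ℝ) :
    lam ^ 3 * Lk v ≤ Lk (fun i => lam * v i) := by
  unfold Lk
  rw [s2_smul]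
  have e : tOf (fun i => lam * v i) = lam ^ 3 * tOf v := by unfold tOf; ring
  rw [e]
  have hk : (0 : ℝ) ≤ kk := by unfold kk; norm_num
  have : 0 ≤ kk * (lam ^ 3 * s2 v ^ 2 * (1 - lam)) :=
    mul_nonneg hk (mul_nonneg (by positivity) (by linarith))
  nlinarith

theorem key_I {lam : ℝ} (h0 : 0 ≤ lam) (h1 : lam < 1) (z v : Fin 3 → ℝ) (hz : Msg z) (hv : Msg v) :
    (1 - 3 / 5 * (lam ^ 2 * s2 v)) ^ 2 * Lk z + ((1 - 3 / 5 * s2 z) ^ 2 * lam ^ 3) * Lk v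
      ≤ (1 / 6) * ∑ g : Equiv.Perm (Fin 3), Kp Lk z (fun i => lam * v (g i)) := by
  have hm : Msg (fun i => lam * v i) := Msg_smul lam h0 h1.le v hv
  set m : Fin 3 → ℝ := fun i => lam * v i with hmd
  have hm1 : ∀ i, -1 < m i := fun i => by
    have := hv.2 i
    simp only [hmd]
    nlinarith
  have step : ∑ g : Equiv.Perm (Fin 3), PlowI (z 0) (z 1) (m (g 0)) (m (g 1))
      ≤ ∑ g : Equiv.Perm (Fin 3), Kp Lk z (fun i => lam * v (g i)) :=
    Finset.sum_le_sum fun g _ => Kp_L_ge z (fun i => m (g i)) hz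
      (by rw [Equiv.sum_comp g m]; exact hm.1) (fun i => hm1 _)
  have e := sum_perm3 (fun c d => PlowI (z 0) (z 1) c d) m
  rw [e, third m hm.1] at step
  have id := identI (z 0) (z 1) (m 0) (m 1)
  rw [← s2_eq z hz.1, ← tOf_eq z hz.1, ← s2_eq m hm.1, ← tOf_eq m hm.1] at id
  have hev := evI_nonneg z m hz hm
  have hq : s2 m = lam ^ 2 * s2 v := s2_smul lam v
  have hL := Lk_smul_ge h0 h1.le v
  have hB := mul_le_mul_of_nonneg_left hL (sq_nonneg (1 - 3 / 5 * s2 z))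
  have hJ : (5 - 3 * s2 m) ^ 2 * (100 * tOf z - 3 * (3 * s2 z) ^ 2)
      + (5 - 3 * s2 z) ^ 2 * (100 * tOf m - 3 * (3 * s2 m) ^ 2)
      = 2500 * ((1 - 3 / 5 * s2 m) ^ 2 * Lk z + (1 - 3 / 5 * s2 z) ^ 2 * Lk m) := by
    unfold Lk kk
    ring
  rw [hJ] at id
  rw [← hq]
  generalize ∑ g : Equiv.Perm (Fin 3), Kp Lk z (fun i => lam * v (g i)) = K at step ⊢
  generalize evT termsFI (3 * s2 z) (tOf z) (3 * s2 m) (tOf m) = E at id hev
  generalize PlowI (z 0) (z 1) (m 0) (m 1) + PlowI (z 0) (z 1) (m 0) (-m 0 - m 1)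
    + PlowI (z 0) (z 1) (m 1) (m 0) + PlowI (z 0) (z 1) (m 1) (-m 0 - m 1)
    + PlowI (z 0) (z 1) (-m 0 - m 1) (m 0) + PlowI (z 0) (z 1) (-m 0 - m 1) (m 1) = SS at id step
  have hB' : ((1 - 3 / 5 * s2 z) ^ 2 * lam ^ 3) * Lk v ≤ (1 - 3 / 5 * s2 z) ^ 2 * Lk m := by
    calc _ = (1 - 3 / 5 * s2 z) ^ 2 * (lam ^ 3 * Lk v) := by ring
      _ ≤ _ := hB
  linarith

theorem key_M {lam : ℝ} (h0 : 0 ≤ lam) (h1 : lam < 1) (z v : Fin 3 → ℝ) (hz : Msg z) (hv : Msg v) :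
    (1 / 6) * (∑ g : Equiv.Perm (Fin 3), Kp s2 z (fun i => lam * v (g i)))
      + (3 / 4 * (lam ^ 2 * s2 v) - 3 / 8 * (lam ^ 3 * tOf v)) * Lk z
      + ((3 / 4 * s2 z - 3 / 8 * tOf z) * lam ^ 3) * Lk v
      + lam ^ 2 / 200 * s2 v * s2 z ^ 2 ≤ s2 z + lam ^ 2 * s2 v := by
  have hm : Msg (fun i => lam * v i) := Msg_smul lam h0 h1.le v hv
  set m : Fin 3 → ℝ := fun i => lam * v i with hmd
  have hm1 : ∀ i, -1 < m i := fun i => by
    have := hv.2 i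
    simp only [hmd]
    nlinarith
  have step : ∑ g : Equiv.Perm (Fin 3), Kp s2 z (fun i => lam * v (g i))
      ≤ ∑ g : Equiv.Perm (Fin 3), UM (z 0) (z 1) (m (g 0)) (m (g 1)) :=
    Finset.sum_le_sum fun g _ => Kp_s2_le z (fun i => m (g i)) hz
      (by rw [Equiv.sum_comp g m]; exact hm.1) (fun i => hm1 _)
  have e := sum_perm3 (fun c d => UM (z 0) (z 1) c d) m
  rw [e, third m hm.1] at step
  have id := identM (z 0) (z 1) (m 0) (m 1)
  rw [← s2_eq z hz.1, ← tOf_eq z hz.1, ← s2_eq m hm.1, ← tOf_eq m hm.1] at id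
  have hev := evM_nonneg z m hz hm
  have hq : s2 m = lam ^ 2 * s2 v := s2_smul lam v
  have hr : tOf m = lam ^ 3 * tOf v := by simp only [hmd]; unfold tOf; ring
  have hL := Lk_smul_ge h0 h1.le v
  have hb0 : 0 ≤ 3 / 4 * s2 z - 3 / 8 * tOf z := by
    have := (abs_le.1 (t_abs z hz)).2
    have := s2_nonneg z
    linarith
  have hB := mul_le_mul_of_nonneg_left hL hb0
  have hJ : (2 * (3 * s2 m) - 3 * tOf m) * (100 * tOf z - 3 * (3 * s2 z) ^ 2)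
      + (2 * (3 * s2 z) - 3 * tOf z) * (100 * tOf m - 3 * (3 * s2 m) ^ 2)
      = 800 * ((3 / 4 * s2 m - 3 / 8 * tOf m) * Lk z + (3 / 4 * s2 z - 3 / 8 * tOf z) * Lk m) := by
    unfold Lk kk
    ring
  rw [hJ] at id
  have hmarg : lam ^ 2 / 200 * s2 v * s2 z ^ 2 ≤ (3 * s2 z) * (3 * s2 m) / 900 := by
    rw [hq]
    have h5 := s2_le2 z hz
    have h6 := s2_nonneg z
    have h7 : 0 ≤ lam ^ 2 * s2 v := mul_nonneg (by positivity) (s2_nonneg v)
    have h8 : 0 ≤ lam ^ 2 * s2 v * s2 z * (2 - s2 z) := mul_nonneg (mul_nonneg h7 h6) (by linarith)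
    nlinarith
  rw [← hq, ← hr]
  generalize ∑ g : Equiv.Perm (Fin 3), Kp s2 z (fun i => lam * v (g i)) = K at step ⊢
  generalize evT termsFM (3 * s2 z) (tOf z) (3 * s2 m) (tOf m) = E at id hev
  generalize UM (z 0) (z 1) (m 0) (m 1) + UM (z 0) (z 1) (m 0) (-m 0 - m 1)
    + UM (z 0) (z 1) (m 1) (m 0) + UM (z 0) (z 1) (m 1) (-m 0 - m 1)
    + UM (z 0) (z 1) (-m 0 - m 1) (m 0) + UM (z 0) (z 1) (-m 0 - m 1) (m 1) = SS at id step
  have hB' : ((3 / 4 * s2 z - 3 / 8 * tOf z) * lam ^ 3) * Lk v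
      ≤ (3 / 4 * s2 z - 3 / 8 * tOf z) * Lk m := by
    calc _ = (3 / 4 * s2 z - 3 / 8 * tOf z) * (lam ^ 3 * Lk v) := by ring
      _ ≤ _ := hB
  have hrhs : s2 z + s2 m = (3 * s2 z + 3 * s2 m) / 3 := by ring
  rw [hq]
  rw [hq] at id hmarg
  nlinarith

/-! ### Final theorems -/

/-- **Three colours, ferromagnetic channel, every Galton-Watson tree with full-support offspring law.** -/
theorem final_gw {off : ℕ → ℝ} (hoff : ∀ N, 0 < off N) (hsum : HasSum off 1) {d : ℝ}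
    (hm : HasSum (fun N : ℕ => off N * (N : ℝ)) d) {lam : ℝ} (h0 : 0 ≤ lam) (h1 : lam < 1)
    (hdl : d * lam ^ 2 ≤ 1) : Tendsto (gwError 3 off lam) atTop (𝓝 0) := by
  have hk : (0 : ℝ) ≤ kk := by unfold kk; norm_num
  have hk1 : kk ≤ 27 / 100 := by unfold kk; norm_num
  have l2 : lam ^ 2 ≤ 1 := by nlinarith
  have l3 : lam ^ 3 ≤ 1 := by nlinarith [mul_nonneg h0 h0, mul_nonneg (mul_nonneg h0 h0) h0]
  have l20 : 0 ≤ lam ^ 2 := by positivity
  have l30 : 0 ≤ lam ^ 3 := by positivity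
  refine GW3.gw_of_cone hoff hsum hm h0 h1 hdl Lk
    (fun v => (1 - 3 / 5 * (lam ^ 2 * s2 v)) ^ 2) (fun z => (1 - 3 / 5 * s2 z) ^ 2 * lam ^ 3)
    (fun v => 3 / 4 * (lam ^ 2 * s2 v) - 3 / 8 * (lam ^ 3 * tOf v))
    (fun z => (3 / 4 * s2 z - 3 / 8 * tOf z) * lam ^ 3)
    (lam ^ 2 / 200) (lam ^ 3) (by positivity) (fun hl => by positivity) (by positivity)
    4 1 3 ?_ ?_ ?_ ?_ ?_ ?_ ?_ ?_ ?_ ?_ ?_ ?_
  · -- bound for L
    intro v hv
    have h2 := s2_le2 v hv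
    have h3 := s2_nonneg v
    have h4 := abs_le.1 (t_abs v hv)
    have h5 : s2 v ^ 2 ≤ 4 := by nlinarith
    have h6 : 0 ≤ s2 v ^ 2 := sq_nonneg _
    have h7 : kk * s2 v ^ 2 ≤ 27 / 100 * 4 := by nlinarith
    have h8 : 0 ≤ kk * s2 v ^ 2 := mul_nonneg hk h6
    unfold Lk
    rw [abs_le]
    constructor <;> linarith [h4.1, h4.2]
  · -- bound for a
    intro v hv
    have h2 := s2_le2 v hv
    have h3 := s2_nonneg v
    have h4 : lam ^ 2 * s2 v ≤ 2 := by nlinarith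
    have h5 : 0 ≤ lam ^ 2 * s2 v := mul_nonneg l20 h3
    show (1 - 3 / 5 * (lam ^ 2 * s2 v)) ^ 2 ≤ 1
    nlinarith
  · -- bound for a'
    intro v hv
    have h2 := s2_le2 v hv
    have h3 := s2_nonneg v
    have h4 := abs_le.1 (t_abs v hv)
    have h5 : lam ^ 2 * s2 v ≤ 2 := by nlinarith
    have h6 : -2 ≤ lam ^ 3 * tOf v := by nlinarith
    show 3 / 4 * (lam ^ 2 * s2 v) - 3 / 8 * (lam ^ 3 * tOf v) ≤ 3
    linarith
  · intro v _
    exact sq_nonneg _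
  · intro z _
    exact mul_nonneg (sq_nonneg _) l30
  · -- a' nonnegative
    intro v hv
    have h3 := s2_nonneg v
    have h4 := abs_le.1 (t_abs v hv)
    show 0 ≤ 3 / 4 * (lam ^ 2 * s2 v) - 3 / 8 * (lam ^ 3 * tOf v)
    have h5 : lam * tOf v ≤ s2 v := by nlinarith
    have e : 3 / 4 * (lam ^ 2 * s2 v) - 3 / 8 * (lam ^ 3 * tOf v)
        = lam ^ 2 * (3 / 4 * s2 v - 3 / 8 * (lam * tOf v)) := by ring
    rw [e]
    exact mul_nonneg l20 (by linarith)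
  · -- b' nonnegative
    intro z hz
    have h3 := s2_nonneg z
    have h4 := abs_le.1 (t_abs z hz)
    exact mul_nonneg (by linarith [h4.2]) l30
  · -- L at the origin
    simp [Lk, tOf, s2]
  · -- L at the vertices
    intro i
    have e1 : s2 (vertex i) = 2 := by
      unfold s2 vertex
      fin_cases i <;> simp [Fin.sum_univ_three] <;> norm_num
    have e2 : tOf (vertex i) = 2 := by
      unfold tOf vertex
      fin_cases i <;> simp <;> norm_num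
    unfold Lk
    rw [e1, e2]
    nlinarith
  · -- first step
    intro v _
    exact Lk_smul_ge h0 h1.le v
  · intro z v hz hv
    exact key_I h0 h1 z v hz hv
  · intro z v hz hv
    exact key_M h0 h1 z v hz hv

/-- **Poisson offspring, three colours, ferromagnetic channel.** -/
theorem final_poisson {d lam : ℝ} (hd : 0 < d) (h0 : 0 ≤ lam) (h1 : lam < 1) (hdl : d * lam ^ 2 ≤ 1) :
    Tendsto (gwError 3 (poissonOff d) lam) atTop (𝓝 0) :=
  final_gw (GW3.poissonOff_pos hd) (GW3.poissonOff_hasSum d) (GW3.poissonOff_mean d) h0 h1 hdl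

end

end Vale.Agent.P154q3.C
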