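import Vale.Agent.P154q4.TM

namespace Vale.Agent.P154q3.C

noncomputable section

open Vale.Agent.P154q4.TMC MT in
/-- Data of one sign branch. -/
def DMnp : Data :=
  ⟨false, true, 29,
   (p (p (p nil nil) nil) (t (p (p (p nil nil) (t (p (t nil nil) nil) nil)) nil) nil)),
   (p (p (p nil nil) nil) (t (p (p (p nil nil) (t (p (t nil nil) nil) nil)) nil) nil)),
  [[Int.ofNat 205520896, Int.negSucc 124780543, Int.ofNat 0, Int.ofNat 0, Int.negSucc 104857599, Int.ofNat 0, Int.ofNat 0, Int.ofNat 0, Int.ofNat 0, Int.ofNat 0, Int.ofNat 0],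
  [Int.negSucc 124780543, Int.ofNat 186053600, Int.negSucc 145455599, Int.ofNat 0, Int.ofNat 252182528, Int.negSucc 314572799, Int.ofNat 0, Int.ofNat 0, Int.ofNat 0, Int.ofNat 0, Int.ofNat 0],
  [Int.ofNat 0, Int.negSucc 145455599, Int.ofNat 82613100, Int.negSucc 36191099, Int.ofNat 0, Int.ofNat 145455600, Int.negSucc 150308099, Int.ofNat 0, Int.negSucc 56487599, Int.ofNat 13160400, Int.ofNat 0],
  [Int.ofNat 0, Int.ofNat 0, Int.negSucc 36191099, Int.ofNat 41307875, Int.ofNat 0, Int.ofNat 0, Int.ofNat 29610900, Int.negSucc 8170824, Int.ofNat 13160400, Int.negSucc 37626999, Int.ofNat 2108600],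
  [Int.ofNat 104857600, Int.negSucc 252182527, Int.ofNat 0, Int.ofNat 0, Int.ofNat 104857600, Int.negSucc 209715199, Int.ofNat 0, Int.ofNat 0, Int.ofNat 0, Int.ofNat 0, Int.ofNat 0],
  [Int.ofNat 0, Int.ofNat 314572800, Int.negSucc 145455599, Int.ofNat 0, Int.negSucc 209715199, Int.ofNat 268596400, Int.negSucc 167008999, Int.ofNat 0, Int.negSucc 193940799, Int.ofNat 0, Int.ofNat 0],
  [Int.ofNat 0, Int.ofNat 0, Int.ofNat 150308100, Int.negSucc 29610899, Int.ofNat 0, Int.negSucc 167008999, Int.ofNat 151170500, Int.negSucc 11070149, Int.ofNat 66803600, Int.negSucc 78962399, Int.ofNat 0],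
  [Int.ofNat 0, Int.ofNat 0, Int.ofNat 0, Int.ofNat 8170825, Int.ofNat 0, Int.ofNat 0, Int.negSucc 11070149, Int.ofNat 18977400, Int.ofNat 0, Int.ofNat 4217200, Int.negSucc 6325799],
  [Int.ofNat 0, Int.ofNat 0, Int.negSucc 56487599, Int.ofNat 13160400, Int.ofNat 0, Int.ofNat 193940800, Int.negSucc 66803599, Int.ofNat 0, Int.ofNat 225950400, Int.negSucc 52641599, Int.ofNat 0],
  [Int.ofNat 0, Int.ofNat 0, Int.ofNat 13160400, Int.negSucc 37626999, Int.ofNat 0, Int.ofNat 0, Int.ofNat 78962400, Int.negSucc 4217199, Int.negSucc 52641599, Int.ofNat 150508000, Int.negSucc 8434399],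
  [Int.ofNat 0, Int.ofNat 0, Int.ofNat 0, Int.negSucc 2108599, Int.ofNat 0, Int.ofNat 0, Int.ofNat 0, Int.negSucc 6325799, Int.ofNat 0, Int.ofNat 8434400, Int.ofNat 16868800]],
  false, 0, 1⟩

end

end Vale.Agent.P154q3.C
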