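import Vale.Agent.P154q4.TM

namespace Vale.Agent.P154q3.C

noncomputable section

open Vale.Agent.P154q4.TMC MT in
/-- Data of one sign branch. -/
def DMpp : Data :=
  ⟨true, true, 29,
   (p (p (p nil nil) nil) (t (p (p (p nil nil) (t (p (t nil nil) nil) nil)) nil) nil)),
   (p (p (p nil nil) nil) (t (p (p (p nil nil) (t (p (t nil nil) nil) nil)) nil) nil)),
  [[Int.ofNat 205520896, Int.negSucc 124780543, Int.ofNat 0, Int.ofNat 0, Int.ofNat 104857600, Int.ofNat 0, Int.ofNat 0, Int.ofNat 0, Int.ofNat 0, Int.ofNat 0, Int.ofNat 0],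
  [Int.negSucc 124780543, Int.ofNat 186053600, Int.negSucc 145455599, Int.ofNat 0, Int.negSucc 252182527, Int.ofNat 314572800, Int.ofNat 0, Int.ofNat 0, Int.ofNat 0, Int.ofNat 0, Int.ofNat 0],
  [Int.ofNat 0, Int.negSucc 145455599, Int.ofNat 82613100, Int.negSucc 36191099, Int.ofNat 0, Int.negSucc 145455599, Int.ofNat 150308100, Int.ofNat 0, Int.negSucc 56487599, Int.ofNat 13160400, Int.ofNat 0],
  [Int.ofNat 0, Int.ofNat 0, Int.negSucc 36191099, Int.ofNat 41307875, Int.ofNat 0, Int.ofNat 0, Int.negSucc 29610899, Int.ofNat 8170825, Int.ofNat 13160400, Int.negSucc 37626999, Int.negSucc 2108599],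
  [Int.ofNat 104857600, Int.negSucc 252182527, Int.ofNat 0, Int.ofNat 0, Int.negSucc 104857599, Int.ofNat 209715200, Int.ofNat 0, Int.ofNat 0, Int.ofNat 0, Int.ofNat 0, Int.ofNat 0],
  [Int.ofNat 0, Int.ofNat 314572800, Int.negSucc 145455599, Int.ofNat 0, Int.ofNat 209715200, Int.negSucc 268596399, Int.ofNat 167009000, Int.ofNat 0, Int.negSucc 193940799, Int.ofNat 0, Int.ofNat 0],
  [Int.ofNat 0, Int.ofNat 0, Int.ofNat 150308100, Int.negSucc 29610899, Int.ofNat 0, Int.ofNat 167009000, Int.negSucc 151170499, Int.ofNat 11070150, Int.ofNat 66803600, Int.negSucc 78962399, Int.ofNat 0],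
  [Int.ofNat 0, Int.ofNat 0, Int.ofNat 0, Int.ofNat 8170825, Int.ofNat 0, Int.ofNat 0, Int.ofNat 11070150, Int.negSucc 18977399, Int.ofNat 0, Int.ofNat 4217200, Int.ofNat 6325800],
  [Int.ofNat 0, Int.ofNat 0, Int.negSucc 56487599, Int.ofNat 13160400, Int.ofNat 0, Int.negSucc 193940799, Int.ofNat 66803600, Int.ofNat 0, Int.ofNat 225950400, Int.negSucc 52641599, Int.ofNat 0],
  [Int.ofNat 0, Int.ofNat 0, Int.ofNat 13160400, Int.negSucc 37626999, Int.ofNat 0, Int.ofNat 0, Int.negSucc 78962399, Int.ofNat 4217200, Int.negSucc 52641599, Int.ofNat 150508000, Int.ofNat 8434400],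
  [Int.ofNat 0, Int.ofNat 0, Int.ofNat 0, Int.negSucc 2108599, Int.ofNat 0, Int.ofNat 0, Int.ofNat 0, Int.ofNat 6325800, Int.ofNat 0, Int.ofNat 8434400, Int.negSucc 16868799]],
  false, 0, 1⟩

end

end Vale.Agent.P154q3.C
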