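import Mathlib
import Vale.Agent.P154q4.TMSound
import Vale.Agent.P154q3.C.Params
import Vale.Agent.P154q3.C.DIpp
import Vale.Agent.P154q3.C.DIpn
import Vale.Agent.P154q3.C.DInp
import Vale.Agent.P154q3.C.DInn
import Vale.Agent.P154q3.C.DMpp
import Vale.Agent.P154q3.C.DMpn
import Vale.Agent.P154q3.C.DMnp
import Vale.Agent.P154q3.C.DMnn
import Vale.Agent.P154q4.D5.Poly6

/-! The polynomial identities of the three-colour certificate, proved by reflection on integer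
polynomials (`Poly6.lean`), with the kernel computing normal forms. -/

open Vale.Agent.P154q4.TMS

namespace Vale.Agent.P154q3.C

noncomputable section

def U3 (a b c d : ℝ) : ℝ := 2 * a * c + a * d + b * c + 2 * b * d
def x0R (a c : ℝ) : ℝ := (1 + a) * (1 + c)
def x1R (b d : ℝ) : ℝ := (1 + b) * (1 + d)
def x2R (a b c d : ℝ) : ℝ := (1 - a - b) * (1 - c - d)
def X9 (a b c d : ℝ) : ℝ :=
  3 * (x0R a c ^ 2 + x1R b d ^ 2 + x2R a b c d ^ 2) - (3 + U3 a b c d) ^ 2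
def PR (a b c d : ℝ) : ℝ := x0R a c * x1R b d * x2R a b c d

/-- Lower bound for the two-point potential of the cone. -/
def PlowI (a b c d : ℝ) : ℝ :=
  PR a b c d * R2 (U3 a b c d / 3) - (1 + U3 a b c d / 3)
    + 3 / 2 * (X9 a b c d / 9) * R1 (U3 a b c d / 3)
    - kk * (4 * (1 + U3 a b c d / 3)
      - (4 * (1 + U3 a b c d / 3) ^ 4 - (X9 a b c d / 9) ^ 2) * R3 (U3 a b c d / 3))

/-- Upper bound for the two-point second moment. -/
def UM (a b c d : ℝ) : ℝ :=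
  2 * (1 + U3 a b c d / 3)
    - (2 * (1 + U3 a b c d / 3) ^ 2 - X9 a b c d / 9) * R1 (U3 a b c d / 3)

namespace IdP

open Vale.Agent.P154q4.D5.P6

/-- Difference of polynomials. -/
def sb (p q : Poly) : Poly := add p (smul (-1) q)

lemma ev_sb (p q : Poly) (x1 x2 x3 x4 x5 x6 : ℝ) :
    ev (sb p q) x1 x2 x3 x4 x5 x6 = ev p x1 x2 x3 x4 x5 x6 - ev q x1 x2 x3 x4 x5 x6 := by
  unfold sb
  rw [ev_add, ev_smul]
  push_cast
  ring

/-- Powers. -/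
def pw (p : Poly) (n : ℕ) : Poly := Nat.rec one (fun _ ih => mul p ih) n

lemma ev_pw (p : Poly) (n : ℕ) (x1 x2 x3 x4 x5 x6 : ℝ) :
    ev (pw p n) x1 x2 x3 x4 x5 x6 = ev p x1 x2 x3 x4 x5 x6 ^ n := by
  induction n with
  | zero => simp [pw]
  | succ n ih =>
    have e : pw p (n + 1) = mul p (pw p n) := rfl
    rw [e, ev_mul, ih]
    ring

/-- One term of a list of monomials in four invariants. -/
def termP (X T Y R : Poly) (t : ℤ × ℕ × ℕ × ℕ × ℕ) : Poly :=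
  smul t.1 (mul (pw X t.2.1) (mul (pw T t.2.2.1) (mul (pw Y t.2.2.2.1) (pw R t.2.2.2.2))))

/-- The polynomial of a list of monomials. -/
def evTP (n : ℕ) (l : List (ℤ × ℕ × ℕ × ℕ × ℕ)) (X T Y R : Poly) : Poly :=
  mergeAll n (l.map (termP X T Y R))

lemma ev_evTP (n : ℕ) (l : List (ℤ × ℕ × ℕ × ℕ × ℕ)) (X T Y R : Poly) (x1 x2 x3 x4 x5 x6 : ℝ) :
    ev (evTP n l X T Y R) x1 x2 x3 x4 x5 x6
      = evT l (ev X x1 x2 x3 x4 x5 x6) (ev T x1 x2 x3 x4 x5 x6) (ev Y x1 x2 x3 x4 x5 x6)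
          (ev R x1 x2 x3 x4 x5 x6) := by
  unfold evTP evT
  rw [ev_mergeAll]
  unfold evs
  rw [List.map_map]
  congr 1
  apply List.map_congr_left
  intro t _
  simp only [Function.comp, termP, ev_smul, ev_mul, ev_pw]
  ring

def PU (c d : Poly) : Poly := add (mul (add (smul 2 v1) v2) c) (mul (add v1 (smul 2 v2)) d)
def PD3 (c d : Poly) : Poly := add (smul 3 one) (PU c d)
def Px0 (c : Poly) : Poly := mul (add one v1) (add one c)
def Px1 (d : Poly) : Poly := mul (add one v2) (add one d)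
def Px2 (c d : Poly) : Poly := mul (sb (sb one v1) v2) (sb (sb one c) d)
def PX9 (c d : Poly) : Poly :=
  sb (smul 3 (add (mul (Px0 c) (Px0 c)) (add (mul (Px1 d) (Px1 d)) (mul (Px2 c d) (Px2 c d)))))
    (mul (PD3 c d) (PD3 c d))
def PPR (c d : Poly) : Poly := mul (mul (Px0 c) (Px1 d)) (Px2 c d)

section
variable (c d : Poly) (a b x3 x4 x5 x6 : ℝ)

lemma ev_PU : ev (PU c d) a b x3 x4 x5 x6
    = U3 a b (ev c a b x3 x4 x5 x6) (ev d a b x3 x4 x5 x6) := by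
  unfold PU U3
  simp only [ev_add, ev_mul, ev_smul, ev_v1, ev_v2]
  push_cast
  ring

lemma ev_PD3 : ev (PD3 c d) a b x3 x4 x5 x6
    = 3 + U3 a b (ev c a b x3 x4 x5 x6) (ev d a b x3 x4 x5 x6) := by
  unfold PD3
  rw [ev_add, ev_smul, ev_one, ev_PU]
  push_cast
  ring

lemma ev_Px0 : ev (Px0 c) a b x3 x4 x5 x6 = x0R a (ev c a b x3 x4 x5 x6) := by
  unfold Px0 x0R
  simp only [ev_add, ev_mul, ev_one, ev_v1]

lemma ev_Px1 : ev (Px1 d) a b x3 x4 x5 x6 = x1R b (ev d a b x3 x4 x5 x6) := by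
  unfold Px1 x1R
  simp only [ev_add, ev_mul, ev_one, ev_v2]

lemma ev_Px2 : ev (Px2 c d) a b x3 x4 x5 x6
    = x2R a b (ev c a b x3 x4 x5 x6) (ev d a b x3 x4 x5 x6) := by
  unfold Px2 x2R
  simp only [ev_sb, ev_mul, ev_one, ev_v1, ev_v2]

lemma ev_PX9 : ev (PX9 c d) a b x3 x4 x5 x6
    = X9 a b (ev c a b x3 x4 x5 x6) (ev d a b x3 x4 x5 x6) := by
  unfold PX9 X9
  simp only [ev_sb, ev_smul, ev_add, ev_mul, ev_PD3, ev_Px0, ev_Px1, ev_Px2]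
  push_cast
  ring

lemma ev_PPR : ev (PPR c d) a b x3 x4 x5 x6
    = PR a b (ev c a b x3 x4 x5 x6) (ev d a b x3 x4 x5 x6) := by
  unfold PPR PR
  simp only [ev_mul, ev_Px0, ev_Px1, ev_Px2]

end

/-- Polynomials in `U` with integer coefficients, from the list of the coefficients. -/
def Uc (U : Poly) (l : List ℤ) : Poly :=
  List.rec (motive := fun _ => Poly) [] (fun c _ ih => add (smul c one) (mul U ih)) l

/-- Value of a coefficient list by Horner. -/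
def hornerR (l : List ℤ) (u : ℝ) : ℝ :=
  List.rec (motive := fun _ => ℝ) 0 (fun c _ ih => (c : ℝ) + u * ih) l

lemma hornerR_nil (u : ℝ) : hornerR [] u = 0 := rfl
lemma hornerR_cons (d : ℤ) (l : List ℤ) (u : ℝ) :
    hornerR (d :: l) u = (d : ℝ) + u * hornerR l u := rfl

lemma ev_Uc (U : Poly) (l : List ℤ) (a b x3 x4 x5 x6 : ℝ) :
    ev (Uc U l) a b x3 x4 x5 x6 = hornerR l (ev U a b x3 x4 x5 x6) := by
  induction l with
  | nil => rfl
  | cons d l ih =>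
    have e : Uc U (d :: l) = add (smul d one) (mul U (Uc U l)) := rfl
    rw [e, hornerR_cons, ev_add, ev_smul, ev_one, ev_mul, ih]
    ring

/-- `171992678400 PlowI` as a polynomial. -/
def P0I (c d : Poly) : Poly :=
  mergeAll 2 [smul 300 (mulB 10 (PPR c d) (Uc (PU c d) [573308928, -382205952, 191102976, -84934656, 29122470, -6265872, 718710, -33238])),
    smul (-119248257024) (PD3 c d),
    smul 50 (mulB 10 (PX9 c d) (Uc (PU c d) [573308928, -191102976, 63700992, -21233664, 6545502, -1503081, 197406, -10543])),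
    mulB 10 (sb (smul 4 (pw (PD3 c d) 4)) (mul (PX9 c d) (PX9 c d))) (Uc (PU c d) [573308928, -573308928, 382205952, -212336640, 81170991, -17993799, 2054022, -93310])]

lemma P0I_spec (c d : Poly) (a b x3 x4 x5 x6 : ℝ) :
    ev (P0I c d) a b x3 x4 x5 x6
      = (171992678400 : ℝ) * PlowI a b (ev c a b x3 x4 x5 x6) (ev d a b x3 x4 x5 x6) := by
  unfold P0I
  rw [ev_mergeAll]
  simp only [evs, List.map_cons, List.map_nil, List.sum_cons, List.sum_nil, ev_smul, ev_mulB, ev_Uc,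
    ev_PD3, ev_PU, ev_PX9, ev_PPR, ev_sb, ev_pw, ev_mul]
  simp only [hornerR_cons, hornerR_nil]
  unfold PlowI R1 R2 R3 G1 G2 G3 kk
  generalize U3 a b (ev c a b x3 x4 x5 x6) (ev d a b x3 x4 x5 x6) = U
  generalize X9 a b (ev c a b x3 x4 x5 x6) (ev d a b x3 x4 x5 x6) = X
  generalize PR a b (ev c a b x3 x4 x5 x6) (ev d a b x3 x4 x5 x6) = Pz
  push_cast
  ring

/-- `5159780352 UM` as a polynomial. -/
def P0M (c d : Poly) : Poly :=
  mergeAll 1 [smul 3439853568 (PD3 c d),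
    smul (-1) (mulB 10 (sb (smul 2 (mul (PD3 c d) (PD3 c d))) (PX9 c d)) (Uc (PU c d) [573308928, -191102976, 63700992, -21233664, 6545502, -1503081, 197406, -10543]))]

lemma P0M_spec (c d : Poly) (a b x3 x4 x5 x6 : ℝ) :
    ev (P0M c d) a b x3 x4 x5 x6
      = (5159780352 : ℝ) * UM a b (ev c a b x3 x4 x5 x6) (ev d a b x3 x4 x5 x6) := by
  unfold P0M
  rw [ev_mergeAll]
  simp only [evs, List.map_cons, List.map_nil, List.sum_cons, List.sum_nil, ev_smul, ev_mulB, ev_Uc,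
    ev_PD3, ev_PU, ev_PX9, ev_sb, ev_mul]
  simp only [hornerR_cons, hornerR_nil]
  unfold UM R1 G1
  generalize U3 a b (ev c a b x3 x4 x5 x6) (ev d a b x3 x4 x5 x6) = U
  generalize X9 a b (ev c a b x3 x4 x5 x6) (ev d a b x3 x4 x5 x6) = X
  push_cast
  ring

def Pe : Poly := sb (smul (-1) v4) v5
def Pp3 : Poly := add (smul 2 (mul v1 v1)) (add (smul 2 (mul v1 v2)) (smul 2 (mul v2 v2)))
def Pt : Poly := sb (smul (-1) (mul (mul v1 v1) v2)) (mul v1 (mul v2 v2))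
def Pq3 : Poly := add (smul 2 (mul v4 v4)) (add (smul 2 (mul v4 v5)) (smul 2 (mul v5 v5)))
def Pr : Poly := sb (smul (-1) (mul (mul v4 v4) v5)) (mul v4 (mul v5 v5))
def Pw5 (X : Poly) : Poly := mul (sb (smul 5 one) X) (sb (smul 5 one) X)
def PLz : Poly := sb (smul 100 Pt) (smul 3 (mul Pp3 Pp3))
def PLm : Poly := sb (smul 100 Pr) (smul 3 (mul Pq3 Pq3))

section
variable (a b x3 c d x6 : ℝ)

lemma ev_Pe : ev Pe a b x3 c d x6 = -c - d := by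
  unfold Pe
  simp only [ev_sb, ev_smul, ev_v4, ev_v5]
  push_cast
  ring

lemma ev_Pp3 : ev Pp3 a b x3 c d x6 = 2 * a ^ 2 + 2 * a * b + 2 * b ^ 2 := by
  unfold Pp3
  simp only [ev_add, ev_smul, ev_mul, ev_v1, ev_v2]
  push_cast
  ring

lemma ev_Pt : ev Pt a b x3 c d x6 = a * b * (-a - b) := by
  unfold Pt
  simp only [ev_sb, ev_smul, ev_mul, ev_v1, ev_v2]
  push_cast
  ring

lemma ev_Pq3 : ev Pq3 a b x3 c d x6 = 2 * c ^ 2 + 2 * c * d + 2 * d ^ 2 := by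
  unfold Pq3
  simp only [ev_add, ev_smul, ev_mul, ev_v4, ev_v5]
  push_cast
  ring

lemma ev_Pr : ev Pr a b x3 c d x6 = c * d * (-c - d) := by
  unfold Pr
  simp only [ev_sb, ev_smul, ev_mul, ev_v4, ev_v5]
  push_cast
  ring

lemma ev_Pw5 (X : Poly) : ev (Pw5 X) a b x3 c d x6 = (5 - ev X a b x3 c d x6) ^ 2 := by
  unfold Pw5
  simp only [ev_mul, ev_sb, ev_smul, ev_one]
  push_cast
  ring

lemma ev_PLz : ev PLz a b x3 c d x6
    = 100 * (a * b * (-a - b)) - 3 * (2 * a ^ 2 + 2 * a * b + 2 * b ^ 2) ^ 2 := by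
  unfold PLz
  simp only [ev_sb, ev_smul, ev_mul, ev_Pt, ev_Pp3]
  push_cast
  ring

lemma ev_PLm : ev PLm a b x3 c d x6
    = 100 * (c * d * (-c - d)) - 3 * (2 * c ^ 2 + 2 * c * d + 2 * d ^ 2) ^ 2 := by
  unfold PLm
  simp only [ev_sb, ev_smul, ev_mul, ev_Pr, ev_Pq3]
  push_cast
  ring

end

/-! ### The tables of the certificates -/

def mkT (K : ℕ → ℕ → ℕ → ℕ → ℕ → ℕ → ℕ) (c : ℤ) (e f : ℕ × ℕ × ℕ) : Tm :=
  ⟨K e.1 e.2.1 e.2.2 f.1 f.2.1 f.2.2, e.1, e.2.1, e.2.2, f.1, f.2.1, f.2.2, c⟩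

def rowL (K : ℕ → ℕ → ℕ → ℕ → ℕ → ℕ → ℕ) (f : ℕ × ℕ × ℕ) : List ℤ → List (ℕ × ℕ × ℕ) → List Tm
  | c :: cs, e :: es => cond (isZ c) (rowL K f cs es) (mkT K c e f :: rowL K f cs es)
  | _, _ => []

def tabL (K : ℕ → ℕ → ℕ → ℕ → ℕ → ℕ → ℕ) (es : List (ℕ × ℕ × ℕ)) :
    List (List ℤ) → List (ℕ × ℕ × ℕ) → List Tm
  | r :: rs, f :: fs => rowL K f r es ++ tabL K es rs fs
  | _, _ => []

lemma ev_append (l m : Poly) (x1 x2 x3 x4 x5 x6 : ℝ) :
    ev (l ++ m) x1 x2 x3 x4 x5 x6 = ev l x1 x2 x3 x4 x5 x6 + ev m x1 x2 x3 x4 x5 x6 := by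
  induction l with
  | nil => simp
  | cons a l ih =>
    rw [List.cons_append, ev_cons, ev_cons, ih]
    ring

lemma val_mkT (K : ℕ → ℕ → ℕ → ℕ → ℕ → ℕ → ℕ) (c : ℤ) (e f : ℕ × ℕ × ℕ)
    (x1 x2 x3 y1 y2 y3 : ℝ) :
    (mkT K c e f).val x1 x2 x3 y1 y2 y3
      = (c : ℝ) * mval (x1, x2, x3) e * mval (y1, y2, y3) f := by
  simp only [Tm.val, mkT, mval]
  ring

lemma ev_rowL (K : ℕ → ℕ → ℕ → ℕ → ℕ → ℕ → ℕ) (f : ℕ × ℕ × ℕ) (cs : List ℤ)
    (es : List (ℕ × ℕ × ℕ)) (x1 x2 x3 y1 y2 y3 : ℝ) :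
    ev (rowL K f cs es) x1 x2 x3 y1 y2 y3
      = rowVal (x1, x2, x3) cs es * mval (y1, y2, y3) f := by
  induction cs generalizing es with
  | nil =>
    cases es <;> simp [rowL, rowVal]
  | cons c cs ih =>
    cases es with
    | nil => simp [rowL, rowVal]
    | cons e es =>
      have hr : rowVal (x1, x2, x3) (c :: cs) (e :: es)
          = (c : ℝ) * mval (x1, x2, x3) e + rowVal (x1, x2, x3) cs es := rfl
      have hl : rowL K f (c :: cs) (e :: es)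
          = cond (isZ c) (rowL K f cs es) (mkT K c e f :: rowL K f cs es) := rfl
      rw [hr, hl]
      cases h : isZ c
      · simp only [cond_false, ev_cons, val_mkT, ih]
        ring
      · have hz := isZ_spec c h
        subst hz
        simp only [cond_true, ih]
        simp

lemma ev_tabL (K : ℕ → ℕ → ℕ → ℕ → ℕ → ℕ → ℕ) (es : List (ℕ × ℕ × ℕ)) (rows : List (List ℤ))
    (fs : List (ℕ × ℕ × ℕ)) (x1 x2 x3 y1 y2 y3 : ℝ) :
    ev (tabL K es rows fs) x1 x2 x3 y1 y2 y3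
      = tabVal (x1, x2, x3) (y1, y2, y3) es rows fs := by
  induction rows generalizing fs with
  | nil =>
    cases fs <;> simp [tabL, tabVal]
  | cons r rs ih =>
    cases fs with
    | nil => simp [tabL, tabVal]
    | cons f fs =>
      have hr : tabVal (x1, x2, x3) (y1, y2, y3) es (r :: rs) (f :: fs)
          = rowVal (x1, x2, x3) r es * mval (y1, y2, y3) f
            + tabVal (x1, x2, x3) (y1, y2, y3) es rs fs := rfl
      have hl : tabL K es (r :: rs) (f :: fs) = rowL K f r es ++ tabL K es rs fs := rfl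
      rw [hr, hl, ev_append, ev_rowL, ih]

/-- The sorted table. -/
def tabS (K : ℕ → ℕ → ℕ → ℕ → ℕ → ℕ → ℕ) (D : Vale.Agent.P154q4.TMC.Data) : Poly :=
  sortP 10 (tabL K (mexps D.zt) D.cf (mexps D.yt))

/-- Left side. -/
def LT (K : ℕ → ℕ → ℕ → ℕ → ℕ → ℕ → ℕ) (D : Vale.Agent.P154q4.TMC.Data) (N : ℕ) : Poly :=
  mulTerm ⟨K 1 0 0 1 0 0, 1, 0, 0, 1, 0, 0, Int.ofNat N⟩ (tabS K D)

lemma ev_LT (K : ℕ → ℕ → ℕ → ℕ → ℕ → ℕ → ℕ) (D : Vale.Agent.P154q4.TMC.Data) (N : ℕ) (P T E Q R E' : ℝ) :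
    ev (LT K D N) P T E Q R E'
      = (N : ℝ) * (P * (Q * tabVal (P, T, E) (Q, R, E') (mexps D.zt) D.cf (mexps D.yt))) := by
  unfold LT tabS
  rw [ev_mulTerm, ev_sortP, ev_tabL]
  simp only [Tm.val]
  have c2 : ((Int.ofNat N : ℤ) : ℝ) = (N : ℝ) := rfl
  rw [c2]
  ring

/-- The right side of a conversion. -/
def RC (C : ℤ) (l : List (ℤ × ℕ × ℕ × ℕ × ℕ)) (σ1 σ2 : ℤ) : Poly :=
  smul C (evTP 9 l (smul 3 v1) (smul σ1 (mul v1 v2)) (smul 3 v4) (smul σ2 (mul v4 v5)))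

lemma ev_RC (C : ℤ) (l : List (ℤ × ℕ × ℕ × ℕ × ℕ)) (σ1 σ2 : ℤ) (P T E Q R E' : ℝ) :
    ev (RC C l σ1 σ2) P T E Q R E'
      = (C : ℝ) * evT l (3 * P) ((σ1 : ℝ) * (P * T)) (3 * Q) ((σ2 : ℝ) * (Q * R)) := by
  unfold RC
  rw [ev_smul, ev_evTP]
  simp only [ev_smul, ev_mul, ev_v1, ev_v2, ev_v4, ev_v5]
  push_cast
  rfl

end IdP

/-- Conversion between a table and a term list. -/
lemma conv3 (D : Vale.Agent.P154q4.TMC.Data) (N : ℕ) (C : ℤ) (l : List (ℤ × ℕ × ℕ × ℕ × ℕ)) (σ1 σ2 : ℤ)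
    (h : Vale.Agent.P154q4.D5.P6.beqP (IdP.LT Vale.Agent.P154q4.D5.P6.keyOf D N) (IdP.RC C l σ1 σ2) = true)
    (P T Q R : ℝ) :
    (N : ℝ) * (P * (Q * tabVal (P, T, 0) (Q, R, 0) (mexps D.zt) D.cf (mexps D.yt)))
      = (C : ℝ) * evT l (3 * P) ((σ1 : ℝ) * (P * T)) (3 * Q) ((σ2 : ℝ) * (Q * R)) := by
  rw [← IdP.ev_LT Vale.Agent.P154q4.D5.P6.keyOf D N P T 0 Q R 0, ← IdP.ev_RC C l σ1 σ2 P T 0 Q R 0]
  exact Vale.Agent.P154q4.D5.P6.ev_of_beqP _ _ h _ _ _ _ _ _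

theorem convIpp (P T Q R : ℝ) :
    ((2187 : ℕ) : ℝ) * (P * (Q * tabVal (P, T, 0) (Q, R, 0) (mexps DIpp.zt) DIpp.cf (mexps DIpp.yt)))
      = ((1 : ℤ) : ℝ) * evT termsFI (3 * P) ((1 : ℤ) * (P * T)) (3 * Q) ((1 : ℤ) * (Q * R)) :=
  conv3 DIpp 2187 1 termsFI (1) (1) (by decide +kernel) P T Q R

theorem convIpn (P T Q R : ℝ) :
    ((2187 : ℕ) : ℝ) * (P * (Q * tabVal (P, T, 0) (Q, R, 0) (mexps DIpn.zt) DIpn.cf (mexps DIpn.yt)))
      = ((1 : ℤ) : ℝ) * evT termsFI (3 * P) ((1 : ℤ) * (P * T)) (3 * Q) ((-1 : ℤ) * (Q * R)) :=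
  conv3 DIpn 2187 1 termsFI (1) (-1) (by decide +kernel) P T Q R

theorem convInp (P T Q R : ℝ) :
    ((2187 : ℕ) : ℝ) * (P * (Q * tabVal (P, T, 0) (Q, R, 0) (mexps DInp.zt) DInp.cf (mexps DInp.yt)))
      = ((1 : ℤ) : ℝ) * evT termsFI (3 * P) ((-1 : ℤ) * (P * T)) (3 * Q) ((1 : ℤ) * (Q * R)) :=
  conv3 DInp 2187 1 termsFI (-1) (1) (by decide +kernel) P T Q R

theorem convInn (P T Q R : ℝ) :
    ((2187 : ℕ) : ℝ) * (P * (Q * tabVal (P, T, 0) (Q, R, 0) (mexps DInn.zt) DInn.cf (mexps DInn.yt)))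
      = ((1 : ℤ) : ℝ) * evT termsFI (3 * P) ((-1 : ℤ) * (P * T)) (3 * Q) ((-1 : ℤ) * (Q * R)) :=
  conv3 DInn 2187 1 termsFI (-1) (-1) (by decide +kernel) P T Q R

theorem convMpp (P T Q R : ℝ) :
    ((6561 : ℕ) : ℝ) * (P * (Q * tabVal (P, T, 0) (Q, R, 0) (mexps DMpp.zt) DMpp.cf (mexps DMpp.yt)))
      = ((1 : ℤ) : ℝ) * evT termsFM (3 * P) ((1 : ℤ) * (P * T)) (3 * Q) ((1 : ℤ) * (Q * R)) :=
  conv3 DMpp 6561 1 termsFM (1) (1) (by decide +kernel) P T Q R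

theorem convMpn (P T Q R : ℝ) :
    ((6561 : ℕ) : ℝ) * (P * (Q * tabVal (P, T, 0) (Q, R, 0) (mexps DMpn.zt) DMpn.cf (mexps DMpn.yt)))
      = ((1 : ℤ) : ℝ) * evT termsFM (3 * P) ((1 : ℤ) * (P * T)) (3 * Q) ((-1 : ℤ) * (Q * R)) :=
  conv3 DMpn 6561 1 termsFM (1) (-1) (by decide +kernel) P T Q R

theorem convMnp (P T Q R : ℝ) :
    ((6561 : ℕ) : ℝ) * (P * (Q * tabVal (P, T, 0) (Q, R, 0) (mexps DMnp.zt) DMnp.cf (mexps DMnp.yt)))
      = ((1 : ℤ) : ℝ) * evT termsFM (3 * P) ((-1 : ℤ) * (P * T)) (3 * Q) ((1 : ℤ) * (Q * R)) :=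
  conv3 DMnp 6561 1 termsFM (-1) (1) (by decide +kernel) P T Q R

theorem convMnn (P T Q R : ℝ) :
    ((6561 : ℕ) : ℝ) * (P * (Q * tabVal (P, T, 0) (Q, R, 0) (mexps DMnn.zt) DMnn.cf (mexps DMnn.yt)))
      = ((1 : ℤ) : ℝ) * evT termsFM (3 * P) ((-1 : ℤ) * (P * T)) (3 * Q) ((-1 : ℤ) * (Q * R)) :=
  conv3 DMnn 6561 1 termsFM (-1) (-1) (by decide +kernel) P T Q R



end

end Vale.Agent.P154q3.C
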